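import Vale.Agent.Lib.P034LogStar.Step

open Finset

namespace Vale.Agent.Lib.P034LogStar

variable {X : Type*} [Fintype X] [DecidableEq X]

set_option linter.unusedSectionVars false

open Classical in
/-- one stage of the reduction. -/
theorem step_lemma {g : Finset X → ℝ} (hg : ∀ S, 0 ≤ g S) (hg0 : g ∅ = 0)
    (I : Finset (Finset X)) {ℓ : ℕ} (hsize : ∀ H ∈ I, H.card ≤ ℓ) (hZ : ∀ H ∈ I, 1 ≤ Zw g H)
    {ρ r c ε θ' L : ℝ} {d s0 t : ℕ}
    (hr : 0 < r) (h2r : 2 * r ≤ ρ) (hc : wc g ρ ≤ c)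
    (hε : 0 < ε) (hε2 : 2 * ε < 1) (hθ' : 0 < θ') (hL : 0 ≤ L) (hdst : d * s0 ≤ t)
    (hc1 : c / (1 - 2 * ε) ≤ 1) :
    ∃ (G₀ C₀ : Finset (Finset X)) (g' : Finset X → ℝ),
      (∀ H ∈ I, (∃ S ∈ G₀, S ⊆ H) ∨ (∃ T ∈ C₀, T ⊆ H)) ∧
      ∑ S ∈ G₀, r ^ S.card ≤ wc g (2 * r) / θ' + (L * ((1 - ε) ^ d + wc (gB g (ε / 2 ^ ℓ) s0) r / ε)
         + Real.exp (-L) * (1 + 2 ^ ℓ * θ' * 2 ^ ℓ / ε) ^ ℓ) ∧
      (∀ T ∈ C₀, T.card ≤ t ∧ 1 ≤ Zw g' T) ∧
      (∀ S, 0 ≤ g' S) ∧ g' ∅ = 0 ∧ wc g' (ρ - 2 * r) ≤ c / (1 - 2 * ε) ^ 2 := by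
  have hρ : 0 < ρ := by linarith
  set γ : ℝ := ε / 2 ^ ℓ with hγ
  have hγ0 : 0 < γ := by positivity
  have h2pow : (0 : ℝ) < 2 ^ ℓ := by positivity
  have hγε : 2 ^ ℓ * γ ≤ ε := by
    rw [hγ, mul_div_cancel₀ _ h2pow.ne']
  set θ : ℝ := 1 - ε with hθ
  have hθ0 : 0 ≤ θ := by rw [hθ]; linarith
  have h2ε : 0 < 1 - 2 * ε := by linarith
  set g₁ : Finset X → ℝ := fun S => gA g γ s0 S / (1 - 2 * ε) with hg₁
  have hg₁nn : ∀ S, 0 ≤ g₁ S := fun S => div_nonneg (gA_nonneg hg _ _ S) h2ε.le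
  have hg₁0 : g₁ ∅ = 0 := by
    simp only [hg₁, gA_empty hg0, zero_div]
  have hsz : ∀ S, g₁ S ≠ 0 → S.card ≤ s0 := by
    intro S hS
    by_contra hcon
    apply hS
    simp only [hg₁, gA]
    rw [if_neg (fun h => hcon h.2), zero_div]
  set heavy : Finset (Finset X) := univ.filter (fun U => θ' ≤ Noise g r U) with hheavy
  set core : Finset (Finset X) := univ.filter (fun T => T.card ≤ t ∧ θ ≤ Phi g₁ r T) with hcore
  set good : Finset (Finset X) := I.filter (fun H =>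
    (∀ U ∈ heavy, ¬ U ⊆ trim g γ H) ∧ (∀ T ∈ core, ¬ T ⊆ trim g γ H)) with hgood
  set B : Finset (Finset X) := good.image (trim g γ) with hB
  have hBprop : ∀ b ∈ B, ∃ H ∈ I, b = trim g γ H ∧ (∀ U ∈ heavy, ¬ U ⊆ b) ∧
      (∀ T ∈ core, ¬ T ⊆ b) := by
    intro b hb
    obtain ⟨H, hH, rfl⟩ := Finset.mem_image.mp hb
    obtain ⟨h1, h2, h3⟩ := Finset.mem_filter.mp hH
    exact ⟨H, h1, rfl, h2, h3⟩
  -- the rounding
  obtain ⟨G, hG⟩ := round_cover hg₁nn (gB_nonneg hg γ s0) hr.le hθ0 hε hL hsz hdst B (by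
    intro b hb
    obtain ⟨H, hH, rfl, h1, h2⟩ := hBprop b hb
    constructor
    · have hm := trim_mass hg hγ0.le (hsize H hH) (hZ H hH) hγε
      rw [← gA_add_gB] at hm
      by_cases hcase : ε ≤ Zw (gB g γ s0) (trim g γ H)
      · exact Or.inl hcase
      · right
        have h3 : Zw g₁ (trim g γ H) = Zw (gA g γ s0) (trim g γ H) / (1 - 2 * ε) := by
          unfold Zw
          rw [Finset.sum_div]
        rw [h3, le_div_iff₀ h2ε]
        have h4 := not_le.mp hcase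
        linarith
    · intro T hT hTc
      by_contra hcon
      exact h2 T (Finset.mem_filter.mpr ⟨Finset.mem_univ _, hTc, not_lt.mp hcon⟩) hT)
  -- the family bound
  set Y : ℝ := 2 ^ ℓ * θ' * 2 ^ ℓ / ε with hY
  have hY0 : 0 ≤ Y := by positivity
  have hYγ : (2 : ℝ) ^ ℓ * θ' / γ = Y := by
    rw [hγ, hY]
    field_simp
  let allowed : Finset X → Prop := fun T => T.card ≤ ℓ ∧ ∀ U, U ⊆ T → Noise g r U < θ'
  have hYbound : ∀ T, allowed T →
      ∑ S ∈ (univ.filter (fun S => γ ≤ g S)).filter (fun S => ¬ S ⊆ T), r ^ (S \ T).card ≤ Y := by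
    rintro T ⟨hT1, hT2⟩
    have h1 : ∑ S ∈ (univ.filter (fun S => γ ≤ g S)).filter (fun S => ¬ S ⊆ T), r ^ (S \ T).card
        ≤ ∑ S ∈ (univ.filter (fun S => γ ≤ g S)).filter (fun S => ¬ S ⊆ T),
            g S * r ^ (S \ T).card / γ := by
      apply Finset.sum_le_sum
      intro S hS
      have hS2 : γ ≤ g S := (Finset.mem_filter.mp (Finset.mem_filter.mp hS).1).2
      rw [le_div_iff₀ hγ0]
      have h3 : 0 ≤ r ^ (S \ T).card := pow_nonneg hr.le _
      nlinarith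
    have h2 : ∑ S ∈ (univ.filter (fun S => γ ≤ g S)).filter (fun S => ¬ S ⊆ T),
        g S * r ^ (S \ T).card / γ ≤ ∑ S : Finset X, g S * r ^ (S \ T).card / γ := by
      apply Finset.sum_le_sum_of_subset_of_nonneg (Finset.subset_univ _)
      intro S _ _
      exact div_nonneg (mul_nonneg (hg S) (pow_nonneg hr.le _)) hγ0.le
    have h3 : ∑ S : Finset X, g S * r ^ (S \ T).card / γ = Phi g r T / γ := by
      unfold Phi
      rw [Finset.sum_div]
    have h4 : Phi g r T ≤ (2 : ℝ) ^ ℓ * θ' := by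
      calc Phi g r T ≤ ∑ U ∈ T.powerset, Noise g r U := phi_le_noise hg hr.le T
        _ ≤ ∑ _U ∈ T.powerset, θ' := by
            apply Finset.sum_le_sum
            intro U hU
            exact (hT2 U (Finset.mem_powerset.mp hU)).le
        _ = (T.powerset.card : ℝ) * θ' := by rw [Finset.sum_const, nsmul_eq_mul]
        _ ≤ (2 : ℝ) ^ ℓ * θ' := by
            apply mul_le_mul_of_nonneg_right _ hθ'.le
            rw [Finset.card_powerset]
            have : 2 ^ T.card ≤ 2 ^ ℓ := Nat.pow_le_pow_right (by norm_num) hT1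
            exact_mod_cast this
    have h5 : Phi g r T / γ ≤ Y := by
      rw [← hYγ]
      exact div_le_div_of_nonneg_right h4 hγ0.le
    linarith
  have hfam : ∑ b ∈ B, r ^ b.card ≤ (1 + Y) ^ ℓ := by
    have h1 := family_bound (Sup := univ.filter (fun S => γ ≤ g S)) hr.le hY0 allowed hYbound ℓ ∅ B
      (by
        intro b hb
        obtain ⟨H, hH, hbH, h1, h2⟩ := hBprop b hb
        have hcard : b.card ≤ ℓ := by
          rw [hbH]
          exact (Finset.card_le_card (trim_subset _ _ _)).trans (hsize H hH)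
        refine ⟨Finset.empty_subset _, by simpa using hcard, ?_, ?_⟩
        · intro T' hT'
          refine ⟨(Finset.card_le_card hT').trans hcard, ?_⟩
          intro U hU
          by_contra hcon
          exact h1 U (Finset.mem_filter.mpr ⟨Finset.mem_univ _, not_lt.mp hcon⟩) (hU.trans hT')
        · intro x hx
          rw [hbH] at hx
          obtain ⟨S, hS1, hS2, hS3⟩ := trim_gen hx
          exact ⟨S, Finset.mem_filter.mpr ⟨Finset.mem_univ _, hS1⟩, hbH ▸ hS2, hS3⟩)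
    simpa using h1
  -- the new weight
  have hw : wc g₁ ρ ≤ c / (1 - 2 * ε) := by
    have h1 : wc g₁ ρ = wc (gA g γ s0) ρ / (1 - 2 * ε) := by
      unfold wc
      rw [Finset.sum_div]
      apply Finset.sum_congr rfl
      intro S _
      simp only [hg₁]
      ring
    have h2 : wc (gA g γ s0) ρ ≤ wc g ρ := by
      unfold wc
      apply Finset.sum_le_sum
      intro S _
      exact mul_le_mul_of_nonneg_right (gA_le hg _ _ S) (pow_nonneg hρ.le _)
    rw [h1]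
    exact div_le_div_of_nonneg_right (h2.trans hc) h2ε.le
  obtain ⟨hDpos, hnew⟩ := new_cost hg₁nn hg₁0 hr h2r hε hε2 hw hc1
  refine ⟨heavy ∪ (G ∪ B.filter (fun b => ∀ a ∈ G, ¬ a ⊆ b)), core,
    gNew g₁ r (1 - ε - wc g₁ r), ?_, ?_, ?_, gNew_nonneg hg₁nn hr.le hDpos, gNew_empty _ _ _, hnew⟩
  · -- coverage
    intro H hH
    by_cases h1 : ∃ U ∈ heavy, U ⊆ trim g γ H
    · obtain ⟨U, hU, hUH⟩ := h1
      exact Or.inl ⟨U, Finset.mem_union_left _ hU, hUH.trans (trim_subset _ _ _)⟩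
    by_cases h2 : ∃ T ∈ core, T ⊆ trim g γ H
    · obtain ⟨T, hT, hTH⟩ := h2
      exact Or.inr ⟨T, hT, hTH.trans (trim_subset _ _ _)⟩
    have hb : trim g γ H ∈ B := by
      refine Finset.mem_image.mpr ⟨H, Finset.mem_filter.mpr ⟨hH, ?_, ?_⟩, rfl⟩
      · intro U hU hsub
        exact h1 ⟨U, hU, hsub⟩
      · intro T hT hsub
        exact h2 ⟨T, hT, hsub⟩
    by_cases h3 : ∃ a ∈ G, a ⊆ trim g γ H
    · obtain ⟨a, ha, haH⟩ := h3
      exact Or.inl ⟨a, Finset.mem_union_right _ (Finset.mem_union_left _ ha),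
        haH.trans (trim_subset _ _ _)⟩
    · refine Or.inl ⟨trim g γ H, Finset.mem_union_right _ (Finset.mem_union_right _ ?_),
        trim_subset _ _ _⟩
      refine Finset.mem_filter.mpr ⟨hb, ?_⟩
      intro a ha hsub
      exact h3 ⟨a, ha, hsub⟩
  · -- cost
    have hfnn : ∀ S : Finset X, 0 ≤ r ^ S.card := fun S => pow_nonneg hr.le _
    have h1 := sum_union_le hfnn heavy (G ∪ B.filter (fun b => ∀ a ∈ G, ¬ a ⊆ b))
    have h2 := sum_union_le hfnn G (B.filter (fun b => ∀ a ∈ G, ¬ a ⊆ b))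
    have h3 : ∑ U ∈ heavy, r ^ U.card ≤ wc g (2 * r) / θ' :=
      heavy_cost hg hr.le hθ' heavy (fun U hU => (Finset.mem_filter.mp hU).2)
    have h4 : Real.exp (-L) * ∑ b ∈ B, r ^ b.card ≤ Real.exp (-L) * (1 + Y) ^ ℓ :=
      mul_le_mul_of_nonneg_left hfam (Real.exp_pos _).le
    linarith
  · -- the new cover
    intro T hT
    obtain ⟨-, h1, h2⟩ := Finset.mem_filter.mp hT
    refine ⟨h1, gNew_cover hg₁nn hr.le hDpos ?_⟩
    rw [phi_empty]
    linarith

end Vale.Agent.Lib.P034LogStar
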