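import Mathlib

open Finset

namespace Vale.Agent.Lib.P034LogStar

variable {X : Type*} [Fintype X] [DecidableEq X]

set_option linter.unusedSectionVars false

/-- cost of a weight function at level `x`. -/
noncomputable def wc (g : Finset X → ℝ) (x : ℝ) : ℝ := ∑ S : Finset X, g S * x ^ S.card

/-- total weight inside `H`. -/
noncomputable def Zw (g : Finset X → ℝ) (H : Finset X) : ℝ := ∑ S ∈ H.powerset, g S

/-- the potential. -/
noncomputable def Phi (g : Finset X → ℝ) (r : ℝ) (T : Finset X) : ℝ :=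
  ∑ S : Finset X, g S * r ^ (S \ T).card

/-- the noise operator. -/
noncomputable def Noise (g : Finset X → ℝ) (r : ℝ) (U : Finset X) : ℝ :=
  ∑ S ∈ univ.filter (fun S => U ⊆ S), g S * r ^ (S \ U).card

lemma noise_nonneg {g : Finset X → ℝ} (hg : ∀ S, 0 ≤ g S) {r : ℝ} (hr : 0 ≤ r) (U : Finset X) :
    0 ≤ Noise g r U :=
  Finset.sum_nonneg fun S _ => mul_nonneg (hg S) (pow_nonneg hr _)

lemma phi_nonneg {g : Finset X → ℝ} (hg : ∀ S, 0 ≤ g S) {r : ℝ} (hr : 0 ≤ r) (T : Finset X) :
    0 ≤ Phi g r T :=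
  Finset.sum_nonneg fun S _ => mul_nonneg (hg S) (pow_nonneg hr _)

lemma wc_nonneg {g : Finset X → ℝ} (hg : ∀ S, 0 ≤ g S) {x : ℝ} (hx : 0 ≤ x) : 0 ≤ wc g x :=
  Finset.sum_nonneg fun S _ => mul_nonneg (hg S) (pow_nonneg hx _)

lemma phi_empty (g : Finset X → ℝ) (r : ℝ) : Phi g r ∅ = wc g r := by
  simp [Phi, wc]

lemma noise_empty (g : Finset X → ℝ) (r : ℝ) : Noise g r ∅ = wc g r := by
  simp [Noise, wc]

/-- swap of the double sum defining noise over a family of `U`. -/
lemma sum_noise_swap (g : Finset X → ℝ) (r : ℝ) (A : Finset (Finset X)) (f : Finset X → ℝ) :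
    ∑ U ∈ A, Noise g r U * f U
      = ∑ S : Finset X, ∑ U ∈ A.filter (fun U => U ⊆ S), g S * r ^ (S \ U).card * f U := by
  unfold Noise
  simp_rw [Finset.sum_mul]
  rw [Finset.sum_comm' (t' := univ) (s' := fun S => A.filter (fun U => U ⊆ S))]
  intro U S
  simp

/-- the key binomial identity for the noise operator. -/
lemma noise_wc (g : Finset X → ℝ) (r x : ℝ) :
    ∑ U : Finset X, Noise g r U * x ^ U.card = wc g (x + r) := by
  rw [sum_noise_swap]
  unfold wc
  apply Finset.sum_congr rfl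
  intro S _
  have h1 : (univ.filter (fun U : Finset X => U ⊆ S)) = S.powerset := by
    ext U; simp
  rw [h1, ← Finset.sum_pow_mul_eq_add_pow x r S, Finset.mul_sum]
  apply Finset.sum_congr rfl
  intro U hU
  have hU' : U ⊆ S := Finset.mem_powerset.mp hU
  rw [Finset.card_sdiff_of_subset hU']
  ring

/-- the refined comparison between the potential and the noise. -/
lemma phi_sub_le_noise {g : Finset X → ℝ} (hg : ∀ S, 0 ≤ g S) {r : ℝ} (hr : 0 ≤ r)
    (T : Finset X) :
    Phi g r T - Phi g r ∅ ≤ ∑ U ∈ T.powerset.erase ∅, Noise g r U := by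
  have h := sum_noise_swap g r (T.powerset.erase ∅) (fun _ => 1)
  simp only [mul_one] at h
  rw [h]
  unfold Phi
  rw [← Finset.sum_sub_distrib]
  apply Finset.sum_le_sum
  intro S _
  by_cases hST : Disjoint S T
  · have h1 : S \ T = S := Finset.sdiff_eq_self_of_disjoint hST
    have h2 : S \ ∅ = S := Finset.sdiff_empty
    rw [h1, h2, sub_self]
    exact Finset.sum_nonneg fun U _ => mul_nonneg (hg S) (pow_nonneg hr _)
  · have hne : (S ∩ T) ≠ ∅ := by
      intro h0
      exact hST (Finset.disjoint_iff_inter_eq_empty.mpr h0)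
    have hmem : S ∩ T ∈ (T.powerset.erase ∅).filter (fun U => U ⊆ S) := by
      simp only [Finset.mem_filter, Finset.mem_erase, Finset.mem_powerset]
      exact ⟨⟨hne, Finset.inter_subset_right⟩, Finset.inter_subset_left⟩
    have h3 : S \ (S ∩ T) = S \ T := by
      ext x; simp only [Finset.mem_sdiff, Finset.mem_inter]; tauto
    calc g S * r ^ (S \ T).card - g S * r ^ (S \ ∅).card
        ≤ g S * r ^ (S \ T).card := by
          have : 0 ≤ g S * r ^ (S \ ∅).card := mul_nonneg (hg S) (pow_nonneg hr _)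
          linarith
      _ = g S * r ^ (S \ (S ∩ T)).card := by rw [h3]
      _ ≤ _ := Finset.single_le_sum
            (f := fun U => g S * r ^ (S \ U).card)
            (fun U _ => mul_nonneg (hg S) (pow_nonneg hr _)) hmem

lemma phi_le_noise {g : Finset X → ℝ} (hg : ∀ S, 0 ≤ g S) {r : ℝ} (hr : 0 ≤ r)
    (T : Finset X) :
    Phi g r T ≤ ∑ U ∈ T.powerset, Noise g r U := by
  have h1 := phi_sub_le_noise hg hr T
  have hmem : (∅ : Finset X) ∈ T.powerset := by simp
  rw [← Finset.add_sum_erase _ _ hmem, noise_empty, ← phi_empty]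
  linarith

/-- scaling of the cost. -/
lemma wc_scale {g : Finset X → ℝ} (hg : ∀ S, 0 ≤ g S) (hg0 : g ∅ = 0) {a b : ℝ} (ha : 0 ≤ a)
    (hab : a ≤ b) (hb : 0 < b) : wc g a ≤ a / b * wc g b := by
  unfold wc
  rw [Finset.mul_sum]
  apply Finset.sum_le_sum
  intro S _
  by_cases hS : S = ∅
  · subst hS; simp [hg0]
  · have hn : 1 ≤ S.card := Finset.card_pos.mpr (Finset.nonempty_iff_ne_empty.mpr hS)
    have h1 : a ^ S.card ≤ a / b * b ^ S.card := by
      obtain ⟨n, hn'⟩ : ∃ n, S.card = n + 1 := ⟨S.card - 1, by omega⟩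
      rw [hn', pow_succ', pow_succ']
      have h2 : a ^ n ≤ b ^ n := pow_le_pow_left₀ ha hab n
      have h3 : a / b * (b * b ^ n) = a * b ^ n := by field_simp
      rw [h3]
      exact mul_le_mul_of_nonneg_left h2 ha
    calc g S * a ^ S.card ≤ g S * (a / b * b ^ S.card) :=
          mul_le_mul_of_nonneg_left h1 (hg S)
      _ = a / b * (g S * b ^ S.card) := by ring

end Vale.Agent.Lib.P034LogStar
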