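import Vale.Agent.Lib.P034LogStar.Basic

open Finset

namespace Vale.Agent.Lib.P034LogStar

variable {X : Type*} [Fintype X] [DecidableEq X]

set_option linter.unusedSectionVars false

/-- guarded tensor power of the weight `g`. -/
noncomputable def chain (g : Finset X → ℝ) (r θ : ℝ) : ℕ → Finset X → Finset X → ℝ
  | 0, T, F => if F = T then 1 else 0
  | f + 1, T, F => if Phi g r T < θ then ∑ S : Finset X, g S * chain g r θ f (T ∪ S) F else 0

lemma chain_nonneg {g : Finset X → ℝ} (hg : ∀ S, 0 ≤ g S) (r θ : ℝ) :
    ∀ (f : ℕ) (T F : Finset X), 0 ≤ chain g r θ f T F := by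
  intro f
  induction f with
  | zero =>
    intro T F
    simp only [chain]
    split_ifs <;> norm_num
  | succ f ih =>
    intro T F
    simp only [chain]
    split_ifs
    · exact Finset.sum_nonneg fun S _ => mul_nonneg (hg S) (ih _ _)
    · exact le_rfl

lemma chain_support (g : Finset X → ℝ) (r θ : ℝ) :
    ∀ (f : ℕ) (T F : Finset X), chain g r θ f T F ≠ 0 → T ⊆ F := by
  intro f
  induction f with
  | zero =>
    intro T F h
    simp only [chain] at h
    split_ifs at h with h1
    · exact h1 ▸ subset_rfl
    · exact absurd rfl h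
  | succ f ih =>
    intro T F h
    simp only [chain] at h
    split_ifs at h with h1
    · obtain ⟨S, _, hS⟩ := Finset.exists_ne_zero_of_sum_ne_zero h
      have h2 : chain g r θ f (T ∪ S) F ≠ 0 := right_ne_zero_of_mul hS
      exact (Finset.subset_union_left).trans (ih _ _ h2)
    · exact absurd rfl h

lemma card_sdiff_union_decomp {T S F : Finset X} (h : T ∪ S ⊆ F) :
    (F \ T).card = (S \ T).card + (F \ (T ∪ S)).card := by
  have h1 : F \ T = (S \ T) ∪ (F \ (T ∪ S)) := by
    ext x
    simp only [Finset.mem_sdiff, Finset.mem_union]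
    constructor
    · rintro ⟨hx, hxT⟩
      by_cases hS : x ∈ S
      · exact Or.inl ⟨hS, hxT⟩
      · exact Or.inr ⟨hx, by tauto⟩
    · rintro (⟨hS, hxT⟩ | ⟨hx, hn⟩)
      · exact ⟨h (Finset.mem_union_right _ hS), hxT⟩
      · exact ⟨hx, fun hT => hn (Or.inl hT)⟩
  have h2 : Disjoint (S \ T) (F \ (T ∪ S)) := by
    rw [Finset.disjoint_left]
    intro x hx hx'
    simp only [Finset.mem_sdiff, Finset.mem_union] at hx hx'
    exact hx'.2 (Or.inr hx.1)
  rw [h1, Finset.card_union_of_disjoint h2]

/-- the cost of the guarded tensor power. -/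
lemma chain_cost {g : Finset X → ℝ} (hg : ∀ S, 0 ≤ g S) {r θ : ℝ} (hr : 0 ≤ r) (hθ : 0 ≤ θ) :
    ∀ (f : ℕ) (T : Finset X), ∑ F : Finset X, chain g r θ f T F * r ^ (F \ T).card ≤ θ ^ f := by
  intro f
  induction f with
  | zero =>
    intro T
    simp only [chain, pow_zero]
    rw [Finset.sum_eq_single T]
    · simp
    · intro F _ hF
      simp [hF]
    · simp
  | succ f ih =>
    intro T
    by_cases hguard : Phi g r T < θ
    · have h1 : ∀ F, chain g r θ (f + 1) T F * r ^ (F \ T).card
          = ∑ S : Finset X, g S * r ^ (S \ T).card *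
              (chain g r θ f (T ∪ S) F * r ^ (F \ (T ∪ S)).card) := by
        intro F
        simp only [chain, if_pos hguard]
        rw [Finset.sum_mul]
        apply Finset.sum_congr rfl
        intro S _
        by_cases h0 : chain g r θ f (T ∪ S) F = 0
        · simp [h0]
        · have hsub := chain_support g r θ f _ _ h0
          rw [card_sdiff_union_decomp hsub, pow_add]
          ring
      simp_rw [h1]
      rw [Finset.sum_comm]
      simp_rw [← Finset.mul_sum]
      calc ∑ S : Finset X, g S * r ^ (S \ T).card *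
              ∑ F : Finset X, chain g r θ f (T ∪ S) F * r ^ (F \ (T ∪ S)).card
          ≤ ∑ S : Finset X, g S * r ^ (S \ T).card * θ ^ f := by
            apply Finset.sum_le_sum
            intro S _
            exact mul_le_mul_of_nonneg_left (ih _)
              (mul_nonneg (hg S) (pow_nonneg hr _))
        _ = Phi g r T * θ ^ f := by
            unfold Phi
            rw [Finset.sum_mul]
        _ ≤ θ * θ ^ f := by
            exact mul_le_mul_of_nonneg_right hguard.le (pow_nonneg hθ _)
        _ = θ ^ (f + 1) := by ring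
    · simp only [chain, if_neg hguard]
      simp only [zero_mul, Finset.sum_const_zero]
      exact pow_nonneg hθ _

/-- the coverage property of the guarded tensor power. -/
lemma chain_cover {g : Finset X → ℝ} (hg : ∀ S, 0 ≤ g S) {r θ : ℝ} {H : Finset X} {s0 t : ℕ}
    (hsize : ∀ S, g S ≠ 0 → S.card ≤ s0) (hZ : 1 ≤ Zw g H)
    (hguard : ∀ T, T ⊆ H → T.card ≤ t → Phi g r T < θ) :
    ∀ (f : ℕ) (T : Finset X), T ⊆ H → T.card + f * s0 ≤ t →
      1 ≤ ∑ F ∈ H.powerset, chain g r θ f T F := by
  intro f
  induction f with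
  | zero =>
    intro T hT _
    simp only [chain]
    rw [Finset.sum_eq_single T]
    · simp
    · intro F _ hF
      simp [hF]
    · intro h
      exact absurd (Finset.mem_powerset.mpr hT) h
  | succ f ih =>
    intro T hT hcard
    have hg1 : Phi g r T < θ := hguard T hT (by nlinarith)
    simp only [chain, if_pos hg1]
    rw [Finset.sum_comm]
    simp_rw [← Finset.mul_sum]
    have h2 : ∀ S ∈ H.powerset,
        g S ≤ g S * ∑ F ∈ H.powerset, chain g r θ f (T ∪ S) F := by
      intro S hS
      by_cases h0 : g S = 0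
      · simp [h0]
      · have hS' : S ⊆ H := Finset.mem_powerset.mp hS
        have hc : (T ∪ S).card + f * s0 ≤ t := by
          have h3 := hsize S h0
          have h4 := Finset.card_union_le T S
          have h5 : (f + 1) * s0 = f * s0 + s0 := by ring
          omega
        have := ih (T ∪ S) (Finset.union_subset hT hS') hc
        have hpos : 0 ≤ g S := hg S
        nlinarith
    calc (1 : ℝ) ≤ Zw g H := hZ
      _ = ∑ S ∈ H.powerset, g S := rfl
      _ ≤ ∑ S ∈ H.powerset, g S * ∑ F ∈ H.powerset, chain g r θ f (T ∪ S) F :=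
          Finset.sum_le_sum h2
      _ ≤ ∑ S : Finset X, g S * ∑ F ∈ H.powerset, chain g r θ f (T ∪ S) F := by
          apply Finset.sum_le_sum_of_subset_of_nonneg (Finset.subset_univ _)
          intro S _ _
          exact mul_nonneg (hg S) (Finset.sum_nonneg fun F _ => chain_nonneg hg r θ f _ _)

/-! ### alteration -/

section Alteration

variable {α β : Type*} [DecidableEq α] [DecidableEq β]

open Classical in
/-- multi-affine derandomisation of the alteration step. -/
lemma alteration (cov : α → β → Prop) (q : α → ℝ) (hq0 : ∀ a, 0 ≤ q a) (hq1 : ∀ a, q a ≤ 1)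
    (c : α → ℝ) (hc : ∀ a, 0 ≤ c a) (B : Finset β) :
    ∀ (U : Finset α) (e : β → ℝ), (∀ b, 0 ≤ e b) →
    ∃ G : Finset α, G ⊆ U ∧
      ∑ a ∈ G, c a + ∑ b ∈ B.filter (fun b => ∀ a ∈ G, ¬ cov a b), e b
        ≤ ∑ a ∈ U, q a * c a + ∑ b ∈ B, e b * ∏ a ∈ U.filter (fun a => cov a b), (1 - q a) := by
  intro U
  induction U using Finset.induction_on with
  | empty =>
    intro e he
    refine ⟨∅, subset_rfl, ?_⟩
    simp
  | insert a0 U' ha0 ih =>
    intro e he
    have hprod : ∀ b, ∏ a ∈ (insert a0 U').filter (fun a => cov a b), (1 - q a)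
        = (if cov a0 b then 1 - q a0 else 1) * ∏ a ∈ U'.filter (fun a => cov a b), (1 - q a) := by
      intro b
      rw [Finset.filter_insert]
      split_ifs with h
      · rw [Finset.prod_insert (by simp [ha0])]
      · rw [one_mul]
    set P : β → ℝ := fun b => ∏ a ∈ U'.filter (fun a => cov a b), (1 - q a) with hP
    have hPnn : ∀ b, 0 ≤ P b := fun b =>
      Finset.prod_nonneg fun a _ => sub_nonneg.mpr (hq1 a)
    set F0 : ℝ := ∑ a ∈ U', q a * c a + ∑ b ∈ B, e b * P b with hF0
    set F1 : ℝ := c a0 + ∑ a ∈ U', q a * c a + ∑ b ∈ B, (if cov a0 b then 0 else e b) * P b with hF1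
    have hF : ∑ a ∈ insert a0 U', q a * c a
        + ∑ b ∈ B, e b * ∏ a ∈ (insert a0 U').filter (fun a => cov a b), (1 - q a)
        = (1 - q a0) * F0 + q a0 * F1 := by
      rw [Finset.sum_insert ha0]
      have hprod' : ∀ b, ∏ a ∈ (insert a0 U').filter (fun a => cov a b), (1 - q a)
          = (if cov a0 b then 1 - q a0 else 1) * P b := hprod
      simp_rw [hprod']
      rw [hF0, hF1]
      have : ∀ b, e b * ((if cov a0 b then 1 - q a0 else 1) * P b)
          = (1 - q a0) * (e b * P b) + q a0 * ((if cov a0 b then 0 else e b) * P b) := by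
        intro b
        split_ifs <;> ring
      simp_rw [this]
      rw [Finset.sum_add_distrib, ← Finset.mul_sum, ← Finset.mul_sum]
      ring
    have hq0' := hq0 a0
    have hq1' := hq1 a0
    by_cases hcase : F0 ≤ F1
    · obtain ⟨G, hG, hle⟩ := ih e he
      refine ⟨G, hG.trans (Finset.subset_insert _ _), ?_⟩
      rw [hF]
      have : F0 ≤ (1 - q a0) * F0 + q a0 * F1 := by nlinarith
      exact hle.trans this
    · rw [not_le] at hcase
      obtain ⟨G, hG, hle⟩ := ih (fun b => if cov a0 b then 0 else e b) (by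
        intro b
        split_ifs
        · exact le_rfl
        · exact he b)
      have ha0G : a0 ∉ G := fun h => ha0 (hG h)
      refine ⟨insert a0 G, Finset.insert_subset_insert _ hG, ?_⟩
      rw [hF]
      have h2 : F1 ≤ (1 - q a0) * F0 + q a0 * F1 := by nlinarith
      refine le_trans ?_ h2
      rw [hF1, Finset.sum_insert ha0G]
      have h3 : ∑ b ∈ B.filter (fun b => ∀ a ∈ insert a0 G, ¬ cov a b), e b
          = ∑ b ∈ B.filter (fun b => ∀ a ∈ G, ¬ cov a b), (if cov a0 b then 0 else e b) := by
        rw [Finset.sum_filter, Finset.sum_filter]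
        apply Finset.sum_congr rfl
        intro b _
        by_cases h : cov a0 b
        · simp [h]
        · simp [h]
      rw [h3]
      linarith

lemma one_sub_min_le_exp {y : ℝ} : 1 - min 1 y ≤ Real.exp (-y) := by
  by_cases h : y ≤ 1
  · rw [min_eq_right h]
    have := Real.add_one_le_exp (-y)
    linarith
  · rw [not_le] at h
    rw [min_eq_left h.le]
    have := Real.exp_pos (-y)
    linarith

open Classical in
/-- randomized rounding with alteration, in the form in which it is used. -/
lemma rounding (cov : α → β → Prop) (x : α → ℝ) (hx : ∀ a, 0 ≤ x a)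
    (c : α → ℝ) (hc : ∀ a, 0 ≤ c a) (e : β → ℝ) (he : ∀ b, 0 ≤ e b)
    (U : Finset α) (B : Finset β) (L : ℝ) (hL : 0 ≤ L)
    (hcov : ∀ b ∈ B, 1 ≤ ∑ a ∈ U.filter (fun a => cov a b), x a) :
    ∃ G : Finset α, G ⊆ U ∧
      ∑ a ∈ G, c a + ∑ b ∈ B.filter (fun b => ∀ a ∈ G, ¬ cov a b), e b
        ≤ L * ∑ a ∈ U, x a * c a + Real.exp (-L) * ∑ b ∈ B, e b := by
  obtain ⟨G, hG, hle⟩ := alteration cov (fun a => min 1 (L * x a))
    (fun a => le_min zero_le_one (mul_nonneg hL (hx a)))
    (fun a => min_le_left _ _) c hc B U e he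
  refine ⟨G, hG, hle.trans ?_⟩
  apply add_le_add
  · rw [Finset.mul_sum]
    apply Finset.sum_le_sum
    intro a _
    have h1 : min 1 (L * x a) ≤ L * x a := min_le_right _ _
    calc min 1 (L * x a) * c a ≤ L * x a * c a := mul_le_mul_of_nonneg_right h1 (hc a)
      _ = L * (x a * c a) := by ring
  · rw [Finset.mul_sum]
    apply Finset.sum_le_sum
    intro b hb
    have h1 : ∏ a ∈ U.filter (fun a => cov a b), (1 - min 1 (L * x a)) ≤ Real.exp (-L) := by
      calc ∏ a ∈ U.filter (fun a => cov a b), (1 - min 1 (L * x a))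
          ≤ ∏ a ∈ U.filter (fun a => cov a b), Real.exp (-(L * x a)) := by
            apply Finset.prod_le_prod
            · intro a _
              exact sub_nonneg.mpr (min_le_left _ _)
            · intro a _
              exact one_sub_min_le_exp
        _ = Real.exp (-(L * ∑ a ∈ U.filter (fun a => cov a b), x a)) := by
            rw [← Real.exp_sum, Finset.mul_sum, Finset.sum_neg_distrib]
        _ ≤ Real.exp (-L) := by
            apply Real.exp_le_exp.mpr
            have := hcov b hb
            nlinarith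
    calc e b * ∏ a ∈ U.filter (fun a => cov a b), (1 - min 1 (L * x a))
        ≤ e b * Real.exp (-L) := mul_le_mul_of_nonneg_left h1 (he b)
      _ = Real.exp (-L) * e b := by ring

end Alteration

end Vale.Agent.Lib.P034LogStar
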