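import Vale.Agent.Lib.P034LogStar.Chain

open Finset

namespace Vale.Agent.Lib.P034LogStar

variable {X : Type*} [Fintype X] [DecidableEq X]

set_option linter.unusedSectionVars false

/-- counting the sets generated by a sparse family of supports. -/
lemma family_bound {Sup : Finset (Finset X)} {r Y : ℝ} (hr : 0 ≤ r) (hY0 : 0 ≤ Y)
    (allowed : Finset X → Prop)
    (hY : ∀ T, allowed T → ∑ S ∈ Sup.filter (fun S => ¬ S ⊆ T), r ^ (S \ T).card ≤ Y) :
    ∀ (m : ℕ) (T : Finset X) (R₀ : Finset (Finset X)),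
      (∀ R ∈ R₀, T ⊆ R ∧ (R \ T).card ≤ m ∧ (∀ T', T' ⊆ R → allowed T') ∧
        ∀ x ∈ R, ∃ S ∈ Sup, S ⊆ R ∧ x ∈ S) →
      ∑ R ∈ R₀, r ^ (R \ T).card ≤ (1 + Y) ^ m := by
  classical
  intro m
  induction m with
  | zero =>
    intro T R₀ h
    have hsub : R₀ ⊆ {T} := by
      intro R hR
      obtain ⟨h1, h2, -, -⟩ := h R hR
      have h3 : R \ T = ∅ := Finset.card_eq_zero.mp (Nat.le_zero.mp h2)
      have h4 : R ⊆ T := Finset.sdiff_eq_empty_iff_subset.mp h3
      simp [Finset.Subset.antisymm h4 h1]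
    calc ∑ R ∈ R₀, r ^ (R \ T).card
        ≤ ∑ R ∈ ({T} : Finset (Finset X)), r ^ (R \ T).card :=
          Finset.sum_le_sum_of_subset_of_nonneg hsub (fun _ _ _ => pow_nonneg hr _)
      _ = (1 + Y) ^ 0 := by simp
  | succ m ih =>
    intro T R₀ h
    have h1Y : (1 : ℝ) ≤ (1 + Y) ^ m := one_le_pow₀ (by linarith)
    by_cases hne : R₀.Nonempty
    · obtain ⟨R₁, hR₁⟩ := hne
      have hT : allowed T := (h R₁ hR₁).2.2.1 T (h R₁ hR₁).1
      set R' : Finset (Finset X) := R₀.filter (fun R => R ≠ T) with hR'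
      have hch : ∀ R, ∃ S, R ∈ R' → S ∈ Sup.filter (fun S => ¬ S ⊆ T) ∧ S ⊆ R := by
        intro R
        by_cases hR : R ∈ R'
        · obtain ⟨hR0, hRT⟩ := Finset.mem_filter.mp hR
          obtain ⟨h1, -, -, h4⟩ := h R hR0
          have hnot : ¬ R ⊆ T := fun hh => hRT (Finset.Subset.antisymm hh h1)
          obtain ⟨x, hxR, hxT⟩ := Finset.not_subset.mp hnot
          obtain ⟨S, hS, hSR, hxS⟩ := h4 x hxR
          refine ⟨S, fun _ => ⟨Finset.mem_filter.mpr ⟨hS, ?_⟩, hSR⟩⟩
          intro hST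
          exact hxT (hST hxS)
        · exact ⟨∅, fun h => absurd h hR⟩
      choose σ hσ using hch
      have hmaps : ∀ R ∈ R', σ R ∈ Sup.filter (fun S => ¬ S ⊆ T) := fun R hR => (hσ R hR).1
      have hsum : ∑ R ∈ R', r ^ (R \ T).card ≤ Y * (1 + Y) ^ m := by
        rw [← Finset.sum_fiberwise_of_maps_to hmaps]
        have hinner : ∀ S ∈ Sup.filter (fun S => ¬ S ⊆ T),
            ∑ R ∈ R' with σ R = S, r ^ (R \ T).card ≤ r ^ (S \ T).card * (1 + Y) ^ m := by
          intro S hS
          have hSnot : ¬ S ⊆ T := (Finset.mem_filter.mp hS).2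
          have hSpos : 1 ≤ (S \ T).card := by
            obtain ⟨x, hx, hxT⟩ := Finset.not_subset.mp hSnot
            exact Finset.card_pos.mpr ⟨x, Finset.mem_sdiff.mpr ⟨hx, hxT⟩⟩
          have hmem : ∀ R ∈ R'.filter (fun R => σ R = S),
              R ∈ R₀ ∧ T ∪ S ⊆ R := by
            intro R hR
            obtain ⟨hR1, hR2⟩ := Finset.mem_filter.mp hR
            have hR0 : R ∈ R₀ := (Finset.mem_filter.mp hR1).1
            refine ⟨hR0, Finset.union_subset (h R hR0).1 ?_⟩
            rw [← hR2]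
            exact (hσ R hR1).2
          have h1 : ∑ R ∈ R'.filter (fun R => σ R = S), r ^ (R \ T).card
              = r ^ (S \ T).card * ∑ R ∈ R'.filter (fun R => σ R = S), r ^ (R \ (T ∪ S)).card := by
            rw [Finset.mul_sum]
            apply Finset.sum_congr rfl
            intro R hR
            rw [card_sdiff_union_decomp (hmem R hR).2, pow_add]
          rw [h1]
          apply mul_le_mul_of_nonneg_left _ (pow_nonneg hr _)
          apply ih
          intro R hR
          obtain ⟨hR0, hsub⟩ := hmem R hR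
          obtain ⟨-, h2, h3, h4⟩ := h R hR0
          refine ⟨hsub, ?_, h3, h4⟩
          have := card_sdiff_union_decomp hsub
          omega
        calc ∑ S ∈ Sup.filter (fun S => ¬ S ⊆ T), ∑ R ∈ R' with σ R = S, r ^ (R \ T).card
            ≤ ∑ S ∈ Sup.filter (fun S => ¬ S ⊆ T), r ^ (S \ T).card * (1 + Y) ^ m :=
              Finset.sum_le_sum hinner
          _ = (∑ S ∈ Sup.filter (fun S => ¬ S ⊆ T), r ^ (S \ T).card) * (1 + Y) ^ m := by
              rw [Finset.sum_mul]
          _ ≤ Y * (1 + Y) ^ m :=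
              mul_le_mul_of_nonneg_right (hY T hT) (pow_nonneg (by linarith) _)
      have hsplit : ∑ R ∈ R₀, r ^ (R \ T).card
          = ∑ R ∈ R₀.filter (fun R => R = T), r ^ (R \ T).card + ∑ R ∈ R', r ^ (R \ T).card :=
        (Finset.sum_filter_add_sum_filter_not R₀ (fun R => R = T) _).symm
      have hfirst : ∑ R ∈ R₀.filter (fun R => R = T), r ^ (R \ T).card ≤ 1 := by
        have hsub : R₀.filter (fun R => R = T) ⊆ {T} := by
          intro R hR
          simp [(Finset.mem_filter.mp hR).2]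
        calc _ ≤ ∑ R ∈ ({T} : Finset (Finset X)), r ^ (R \ T).card :=
              Finset.sum_le_sum_of_subset_of_nonneg hsub (fun _ _ _ => pow_nonneg hr _)
          _ = 1 := by simp
      rw [hsplit, pow_succ]
      nlinarith
    · rw [Finset.not_nonempty_iff_eq_empty] at hne
      subst hne
      simp only [Finset.sum_empty]
      exact pow_nonneg (by linarith) _

end Vale.Agent.Lib.P034LogStar
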