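import Mathlib

namespace Vale.Agent.Lib.P034LogStar

/-- The iterated base-2 logarithm: `logStar n = 0` for `n ≤ 1`, and
`logStar n = 1 + logStar (Nat.log 2 n)` for `n ≥ 2`, where `Nat.log 2 n` is the floor of `log₂ n`. -/
def logStar (n : ℕ) : ℕ :=
  if _h : n ≤ 1 then 0 else 1 + logStar (Nat.log 2 n)
termination_by n
decreasing_by exact Nat.log_lt_self 2 (by omega)

end Vale.Agent.Lib.P034LogStar
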