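import Mathlib

open Finset

namespace Vale.Agent.Lib.P034LogStar

set_option linter.unusedSectionVars false

/-- the log scale. -/
def Afn (ℓ : ℕ) : ℕ := Nat.log 2 ℓ + 1

/-- the new size bound. -/
def tauFn (ℓ : ℕ) : ℕ := 18816 * (Afn ℓ) ^ 3

/-- level of the cost. -/
noncomputable def cFn (ℓ : ℕ) : ℝ := 1 / 2 + 1 / (8 * (Afn ℓ : ℝ))

/-- budget. -/
noncomputable def dFn (ℓ : ℕ) : ℝ := 1 / 4 - 1 / (16 * (Afn ℓ : ℝ))

/-- small sizes. -/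
def isSmall (ℓ : ℕ) : Prop := Nat.log 2 (Afn ℓ) < 36

lemma Afn_pos (ℓ : ℕ) : 1 ≤ Afn ℓ := by
  unfold Afn; omega

lemma Afn_cast_pos (ℓ : ℕ) : (0 : ℝ) < Afn ℓ := by
  exact_mod_cast Afn_pos ℓ

lemma cFn_ge (ℓ : ℕ) : 1 / 2 ≤ cFn ℓ := by
  unfold cFn
  have := Afn_cast_pos ℓ
  have h : 0 < 1 / (8 * (Afn ℓ : ℝ)) := by positivity
  linarith

lemma cFn_le (ℓ : ℕ) : cFn ℓ ≤ 5 / 8 := by
  unfold cFn
  have h1 : (1 : ℝ) ≤ Afn ℓ := by exact_mod_cast Afn_pos ℓ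
  have h : 1 / (8 * (Afn ℓ : ℝ)) ≤ 1 / 8 := by
    apply one_div_le_one_div_of_le (by norm_num)
    linarith
  linarith

lemma dFn_ge (ℓ : ℕ) : 3 / 16 ≤ dFn ℓ := by
  unfold dFn
  have h1 : (1 : ℝ) ≤ Afn ℓ := by exact_mod_cast Afn_pos ℓ
  have h : 1 / (16 * (Afn ℓ : ℝ)) ≤ 1 / 16 := by
    apply one_div_le_one_div_of_le (by norm_num)
    linarith
  linarith

lemma dFn_le (ℓ : ℕ) : dFn ℓ ≤ 1 / 4 := by
  unfold dFn
  have := Afn_cast_pos ℓ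
  have h : 0 < 1 / (16 * (Afn ℓ : ℝ)) := by positivity
  linarith

lemma core_numeric : ∀ b : ℕ, 36 ≤ b → 18816 * (3 * b + 18) ^ 3 + 1 ≤ 2 ^ b := by
  intro b hb
  induction b, hb using Nat.le_induction with
  | base => norm_num
  | succ b hb ih =>
    have h1 : (3 * (b + 1) + 18) ^ 3 ≤ 2 * (3 * b + 18) ^ 3 := by
      obtain ⟨u, hu⟩ : ∃ u, 3 * b + 18 = 126 + u := ⟨3 * b + 18 - 126, by omega⟩
      have h2 : 3 * (b + 1) + 18 = 126 + u + 3 := by omega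
      rw [h2, hu]
      nlinarith [Nat.zero_le u, mul_nonneg (Nat.zero_le u) (Nat.zero_le u),
        mul_nonneg (mul_nonneg (Nat.zero_le u) (Nat.zero_le u)) (Nat.zero_le u)]
    have h2 : 2 ^ (b + 1) = 2 * 2 ^ b := pow_succ' 2 b
    rw [h2]
    linarith

section nonsmall

variable {ℓ : ℕ} (hns : ¬ isSmall ℓ)
include hns

lemma nonsmall_b : 36 ≤ Nat.log 2 (Afn ℓ) := by
  unfold isSmall at hns
  omega

lemma nonsmall_pow_le : 2 ^ Nat.log 2 (Afn ℓ) ≤ Afn ℓ :=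
  Nat.pow_log_le_self 2 (by have := Afn_pos ℓ; omega)

lemma nonsmall_Afn_large : 2 ^ 36 ≤ Afn ℓ :=
  le_trans (Nat.pow_le_pow_right (by norm_num) (nonsmall_b hns)) (nonsmall_pow_le hns)

lemma nonsmall_ell_pos : 2 ≤ ℓ := by
  by_contra h
  have h1 := nonsmall_Afn_large hns
  have h2 : ℓ ≤ 1 := by omega
  have h3 : Nat.log 2 ℓ = 0 := Nat.log_of_lt (by omega)
  unfold Afn at h1
  rw [h3] at h1
  norm_num at h1

/-- `Afn (tauFn ℓ)` is at most `3 b + 18`. -/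
lemma Afn_tau_le : Afn (tauFn ℓ) ≤ 3 * Nat.log 2 (Afn ℓ) + 18 := by
  set b := Nat.log 2 (Afn ℓ) with hb
  have h1 : Afn ℓ < 2 ^ (b + 1) := Nat.lt_pow_succ_log_self (by norm_num) _
  have h2 : tauFn ℓ < 2 ^ (3 * b + 18) := by
    unfold tauFn
    have h3 : (Afn ℓ) ^ 3 < (2 ^ (b + 1)) ^ 3 :=
      Nat.pow_lt_pow_left h1 (by norm_num)
    have h4 : (2 ^ (b + 1)) ^ 3 * 2 ^ 15 = 2 ^ (3 * b + 18) := by
      rw [← pow_mul, ← pow_add]
      congr 1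
      ring
    have h5 : 0 < (Afn ℓ) ^ 3 := Nat.pow_pos (Afn_pos ℓ)
    calc 18816 * (Afn ℓ) ^ 3 < 2 ^ 15 * (Afn ℓ) ^ 3 := by
          apply Nat.mul_lt_mul_of_pos_right (by norm_num) h5
      _ ≤ 2 ^ 15 * (2 ^ (b + 1)) ^ 3 := Nat.mul_le_mul_left _ h3.le
      _ = 2 ^ (3 * b + 18) := by rw [← h4, mul_comm]
  have h6 : Nat.log 2 (tauFn ℓ) < 3 * b + 18 := Nat.log_lt_of_lt_pow' (by omega) h2
  unfold Afn at *
  omega

lemma four_Afn_tau_le : 4 * Afn (tauFn ℓ) ≤ Afn ℓ := by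
  set b := Nat.log 2 (Afn ℓ) with hb
  have h1 := Afn_tau_le hns
  have h2 := core_numeric b (nonsmall_b hns)
  have h3 := nonsmall_pow_le hns
  rw [← hb] at h1 h3
  have h4 : 3 * b + 18 ≤ (3 * b + 18) ^ 3 := by
    exact Nat.le_self_pow (by norm_num) _
  nlinarith

lemma tau_tau_le : tauFn (tauFn ℓ) ≤ Nat.log 2 ℓ := by
  set b := Nat.log 2 (Afn ℓ) with hb
  have h1 := Afn_tau_le hns
  have h2 := core_numeric b (nonsmall_b hns)
  have h3 := nonsmall_pow_le hns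
  rw [← hb] at h1 h3
  have h4 : (Afn (tauFn ℓ)) ^ 3 ≤ (3 * b + 18) ^ 3 := Nat.pow_le_pow_left h1 3
  have h5 : tauFn (tauFn ℓ) ≤ 18816 * (3 * b + 18) ^ 3 := by
    show 18816 * (Afn (tauFn ℓ)) ^ 3 ≤ _
    exact Nat.mul_le_mul_left _ h4
  have h6 : Afn ℓ = Nat.log 2 ℓ + 1 := rfl
  omega

lemma Afn_le_self : Afn ℓ ≤ ℓ := by
  have h0 := nonsmall_ell_pos hns
  have := Nat.log_lt_self 2 (show ℓ ≠ 0 by omega)
  unfold Afn
  omega

lemma ell_lt_pow : ℓ < 2 ^ Afn ℓ := Nat.lt_pow_succ_log_self (by norm_num) _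

lemma sixtyfour_le : 64 * Afn ℓ ≤ 2 ^ ℓ := by
  have h1 := Afn_le_self hns
  have h2 := nonsmall_Afn_large hns
  have h3 : 10 ≤ ℓ := by
    have : (2:ℕ) ^ 36 ≥ 10 := by norm_num
    omega
  have h4 : ∀ m : ℕ, 10 ≤ m → 64 * m ≤ 2 ^ m := by
    intro m hm
    induction m, hm using Nat.le_induction with
    | base => norm_num
    | succ m hm ih =>
      rw [pow_succ]
      omega
  have := h4 ℓ h3
  omega

end nonsmall

/-- comparison of the cost levels. -/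
lemma cFn_step {A A' : ℝ} (hA : 1 ≤ A) (hA' : 1 ≤ A') (h4 : 4 * A' ≤ A) :
    (1 / 2 + 1 / (8 * A)) / (1 - 2 * (1 / (64 * A))) ^ 2 ≤ 1 / 2 + 1 / (8 * A') := by
  have hApos : 0 < A := by linarith
  have hA'pos : 0 < A' := by linarith
  set a : ℝ := 1 / A with ha
  set a' : ℝ := 1 / A' with ha'
  have ha0 : 0 < a := by positivity
  have ha'0 : 0 < a' := by positivity
  have ha1 : a ≤ 1 := by
    rw [ha, div_le_one hApos]; exact hA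
  have ha'1 : a' ≤ 1 := by
    rw [ha', div_le_one hA'pos]; exact hA'
  have h4a : 4 * a ≤ a' := by
    rw [ha, ha']
    rw [mul_one_div, div_le_div_iff₀ hApos hA'pos]
    linarith
  have e1 : 1 / (8 * A) = a / 8 := by rw [ha]; field_simp
  have e2 : 1 / (8 * A') = a' / 8 := by rw [ha']; field_simp
  have e3 : 1 / (64 * A) = a / 64 := by rw [ha]; field_simp
  rw [e1, e2, e3]
  have hpos : 0 < (1 - 2 * (a / 64)) ^ 2 := by
    apply pow_pos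
    linarith
  rw [div_le_iff₀ hpos]
  nlinarith [mul_pos ha0 ha'0, mul_pos ha0 ha0, mul_pos (mul_pos ha0 ha0) ha'0]

lemma dFn_step {A A' : ℝ} (hA' : 1 ≤ A') (h4 : 4 * A' ≤ A) :
    1 / (16 * A) + (1 / 4 - 1 / (16 * A')) ≤ 1 / 4 - 1 / (16 * A) := by
  have hA'pos : 0 < A' := by linarith
  have h1 : 1 / (16 * A) ≤ 1 / (16 * (2 * A')) := by
    apply one_div_le_one_div_of_le (by positivity)
    nlinarith
  have h2 : 1 / (16 * (2 * A')) = 1 / (16 * A') / 2 := by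
    field_simp
  rw [h2] at h1
  linarith

lemma exp_neg_one_le : Real.exp (-1) ≤ 1 / 2 := by
  rw [Real.exp_neg, one_div]
  apply inv_anti₀ (by norm_num)
  have := Real.exp_one_gt_d9
  linarith

lemma exp_neg_nat_le (n : ℕ) : Real.exp (-(n : ℝ)) ≤ (1 / 2) ^ n := by
  have h : Real.exp (-(n : ℝ)) = Real.exp (-1) ^ n := by
    rw [← Real.exp_nat_mul]
    congr 1
    ring
  rw [h]
  exact pow_le_pow_left₀ (Real.exp_pos _).le exp_neg_one_le n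

/-- the chain term. -/
lemma chain_term {A ℓ : ℕ} (hA : 1 ≤ A) (hℓ : ℓ < 2 ^ A) (hℓ1 : 1 ≤ ℓ) :
    (((4 * ℓ + 15) * ℓ : ℕ) : ℝ) * (1 - 1 / (64 * (A : ℝ))) ^ (896 * A ^ 2) ≤ 1 / (64 * (A : ℝ)) := by
  have hApos : (0 : ℝ) < A := by exact_mod_cast hA
  set P : ℝ := (2 : ℝ) ^ A with hP
  have hP2 : 2 ≤ P := by
    calc (2 : ℝ) = 2 ^ 1 := by norm_num
      _ ≤ 2 ^ A := pow_le_pow_right₀ (by norm_num) hA
  have hAP : (A : ℝ) ≤ P := by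
    have : A < 2 ^ A := Nat.lt_two_pow_self
    rw [hP]
    exact_mod_cast this.le
  have hℓP : (ℓ : ℝ) ≤ P := by
    rw [hP]
    exact_mod_cast hℓ.le
  have hℓ1' : (1 : ℝ) ≤ ℓ := by exact_mod_cast hℓ1
  -- the power
  have h1 : (1 - 1 / (64 * (A : ℝ))) ^ (896 * A ^ 2) ≤ (1 / P) ^ 14 := by
    have hx : 0 ≤ 1 - 1 / (64 * (A : ℝ)) := by
      have : 1 / (64 * (A : ℝ)) ≤ 1 := by
        rw [div_le_one (by positivity)]
        have : (1 : ℝ) ≤ A := by exact_mod_cast hA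
        linarith
      linarith
    have hle : 1 - 1 / (64 * (A : ℝ)) ≤ Real.exp (-(1 / (64 * (A : ℝ)))) := by
      have := Real.add_one_le_exp (-(1 / (64 * (A : ℝ))))
      linarith
    have h2 : (1 - 1 / (64 * (A : ℝ))) ^ (896 * A ^ 2)
        ≤ Real.exp (-(1 / (64 * (A : ℝ)))) ^ (896 * A ^ 2) :=
      pow_le_pow_left₀ hx hle _
    have h3 : Real.exp (-(1 / (64 * (A : ℝ)))) ^ (896 * A ^ 2) = Real.exp (-((14 * A : ℕ) : ℝ)) := by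
      rw [← Real.exp_nat_mul]
      congr 1
      push_cast
      field_simp
      ring
    have h4 := exp_neg_nat_le (14 * A)
    have h5 : ((1 : ℝ) / 2) ^ (14 * A) = (1 / P) ^ 14 := by
      rw [hP, mul_comm, pow_mul, one_div_pow]
    linarith
  have hLle : (((4 * ℓ + 15) * ℓ : ℕ) : ℝ) ≤ 19 * P ^ 2 := by
    push_cast
    nlinarith
  have hP14 : 0 < P ^ 14 := by positivity
  calc (((4 * ℓ + 15) * ℓ : ℕ) : ℝ) * (1 - 1 / (64 * (A : ℝ))) ^ (896 * A ^ 2)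
      ≤ 19 * P ^ 2 * (1 / P) ^ 14 := by
        apply mul_le_mul hLle h1
        · apply pow_nonneg
          have : 1 / (64 * (A : ℝ)) ≤ 1 := by
            rw [div_le_one (by positivity)]
            have : (1 : ℝ) ≤ A := by exact_mod_cast hA
            linarith
          linarith
        · positivity
    _ ≤ 1 / (64 * (A : ℝ)) := by
        rw [one_div_pow, mul_one_div, div_le_div_iff₀ hP14 (by positivity)]
        have h6 : (2 : ℝ) ^ 11 ≤ P ^ 11 := pow_le_pow_left₀ (by norm_num) hP2 11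
        have h7 : (19 : ℝ) * 64 * P ^ 3 ≤ P ^ 14 := by
          have : P ^ 14 = P ^ 3 * P ^ 11 := by ring
          rw [this]
          have hP3 : 0 < P ^ 3 := by positivity
          nlinarith
        have h8 : 19 * P ^ 2 * (64 * (A : ℝ)) ≤ 19 * 64 * P ^ 3 := by
          have hP2' : 0 < P ^ 2 := by positivity
          have : P ^ 3 = P ^ 2 * P := by ring
          rw [this]
          nlinarith
        linarith

/-- the large-sets term. -/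
lemma big_term {A ℓ : ℕ} (hA : 1 ≤ A) (hℓ : ℓ < 2 ^ A) (hℓ1 : 1 ≤ ℓ) {w : ℝ} (hw0 : 0 ≤ w)
    (hw : w ≤ (1 / 2) ^ (21 * A)) :
    (((4 * ℓ + 15) * ℓ : ℕ) : ℝ) * (w / (1 / (64 * (A : ℝ)))) ≤ 1 / (64 * (A : ℝ)) := by
  have hApos : (0 : ℝ) < A := by exact_mod_cast hA
  set P : ℝ := (2 : ℝ) ^ A with hP
  have hP2 : 2 ≤ P := by
    calc (2 : ℝ) = 2 ^ 1 := by norm_num
      _ ≤ 2 ^ A := pow_le_pow_right₀ (by norm_num) hA
  have hAP : (A : ℝ) ≤ P := by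
    have : A < 2 ^ A := Nat.lt_two_pow_self
    rw [hP]
    exact_mod_cast this.le
  have hℓP : (ℓ : ℝ) ≤ P := by
    rw [hP]
    exact_mod_cast hℓ.le
  have hℓ1' : (1 : ℝ) ≤ ℓ := by exact_mod_cast hℓ1
  have h5 : ((1 : ℝ) / 2) ^ (21 * A) = (1 / P) ^ 21 := by
    rw [hP, mul_comm, pow_mul, one_div_pow]
  rw [h5] at hw
  have hLle : (((4 * ℓ + 15) * ℓ : ℕ) : ℝ) ≤ 19 * P ^ 2 := by
    push_cast
    nlinarith
  have hL0 : (0 : ℝ) ≤ (((4 * ℓ + 15) * ℓ : ℕ) : ℝ) := by positivity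
  have hdiv : w / (1 / (64 * (A : ℝ))) = w * (64 * A) := by
    field_simp
  rw [hdiv]
  have hP21 : 0 < P ^ 21 := by positivity
  calc (((4 * ℓ + 15) * ℓ : ℕ) : ℝ) * (w * (64 * A))
      ≤ 19 * P ^ 2 * ((1 / P) ^ 21 * (64 * A)) := by
        apply mul_le_mul hLle
        · exact mul_le_mul_of_nonneg_right hw (by positivity)
        · positivity
        · positivity
    _ ≤ 1 / (64 * (A : ℝ)) := by
        rw [one_div_pow]
        have e : 19 * P ^ 2 * (1 / P ^ 21 * (64 * (A : ℝ))) = 19 * P ^ 2 * (64 * A) / P ^ 21 := by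
          field_simp
        rw [e, div_le_div_iff₀ hP21 (by positivity)]
        have h6 : (2 : ℝ) ^ 17 ≤ P ^ 17 := pow_le_pow_left₀ (by norm_num) hP2 17
        have h7 : (19 : ℝ) * 64 * 64 * P ^ 4 ≤ P ^ 21 := by
          have : P ^ 21 = P ^ 4 * P ^ 17 := by ring
          rw [this]
          have hP3 : 0 < P ^ 4 := by positivity
          nlinarith
        have h8 : (A : ℝ) * A ≤ P ^ 2 := by nlinarith
        have h9 : 19 * P ^ 2 * (64 * (A : ℝ)) * (64 * A) ≤ 19 * 64 * 64 * P ^ 4 := by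
          have e2 : 19 * P ^ 2 * (64 * (A : ℝ)) * (64 * A) = 19 * 64 * 64 * P ^ 2 * (A * A) := by ring
          have e3 : 19 * 64 * 64 * P ^ 4 = 19 * 64 * 64 * P ^ 2 * P ^ 2 := by ring
          rw [e2, e3]
          apply mul_le_mul_of_nonneg_left h8
          positivity
        linarith

/-- the last term. -/
lemma unc_term {A ℓ : ℕ} (hA : 1 ≤ A) (hAℓ : A ≤ ℓ) (h64 : 64 * A ≤ 2 ^ ℓ) :
    Real.exp (-(((4 * ℓ + 15) * ℓ : ℕ) : ℝ)) *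
      (1 + 2 ^ ℓ * (128 * (A : ℝ)) * 2 ^ ℓ / (1 / (64 * (A : ℝ)))) ^ ℓ ≤ 1 / (64 * (A : ℝ)) := by
  have hApos : (0 : ℝ) < A := by exact_mod_cast hA
  have hE : (2 : ℝ) ^ ℓ > 0 := by positivity
  have hY : 1 + 2 ^ ℓ * (128 * (A : ℝ)) * 2 ^ ℓ / (1 / (64 * (A : ℝ))) ≤ 2 ^ (4 * ℓ + 14) := by
    have h1 : 2 ^ ℓ * (128 * (A : ℝ)) * 2 ^ ℓ / (1 / (64 * (A : ℝ)))
        = 2 ^ 13 * 2 ^ ℓ * 2 ^ ℓ * ((A : ℝ) * A) := by
      field_simp
      ring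
    rw [h1]
    have h2 : (A : ℝ) ≤ 2 ^ ℓ := by
      have : A < 2 ^ A := Nat.lt_two_pow_self
      have h3 : 2 ^ A ≤ 2 ^ ℓ := Nat.pow_le_pow_right (by norm_num) hAℓ
      exact_mod_cast (this.le.trans h3)
    have h3 : (A : ℝ) * A ≤ 2 ^ ℓ * 2 ^ ℓ := mul_le_mul h2 h2 hApos.le hE.le
    have h4 : (2 : ℝ) ^ (4 * ℓ + 14) = 2 * (2 ^ 13 * 2 ^ ℓ * 2 ^ ℓ * (2 ^ ℓ * 2 ^ ℓ)) := by
      rw [show 4 * ℓ + 14 = 1 + (13 + ℓ + ℓ + (ℓ + ℓ)) by ring]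
      simp only [pow_add, pow_one]
    rw [h4]
    have h5 : (1 : ℝ) ≤ 2 ^ 13 * 2 ^ ℓ * 2 ^ ℓ * (2 ^ ℓ * 2 ^ ℓ) := by
      have h6 : (1 : ℝ) ≤ 2 ^ ℓ := one_le_pow₀ (by norm_num)
      have h7 : (1 : ℝ) ≤ 2 ^ 13 := by norm_num
      have h8 : (1 : ℝ) ≤ 2 ^ ℓ * 2 ^ ℓ := by nlinarith
      have h9 : (1 : ℝ) ≤ 2 ^ 13 * 2 ^ ℓ * 2 ^ ℓ := by nlinarith
      nlinarith
    have h6 : 2 ^ 13 * 2 ^ ℓ * 2 ^ ℓ * ((A : ℝ) * A) ≤ 2 ^ 13 * 2 ^ ℓ * 2 ^ ℓ * (2 ^ ℓ * 2 ^ ℓ) :=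
      mul_le_mul_of_nonneg_left h3 (by positivity)
    linarith
  have hY0 : 0 ≤ 1 + 2 ^ ℓ * (128 * (A : ℝ)) * 2 ^ ℓ / (1 / (64 * (A : ℝ))) := by positivity
  have h1 : (1 + 2 ^ ℓ * (128 * (A : ℝ)) * 2 ^ ℓ / (1 / (64 * (A : ℝ)))) ^ ℓ
      ≤ (2 ^ (4 * ℓ + 14)) ^ ℓ := pow_le_pow_left₀ hY0 hY ℓ
  have h2 := exp_neg_nat_le ((4 * ℓ + 15) * ℓ)
  calc Real.exp (-(((4 * ℓ + 15) * ℓ : ℕ) : ℝ)) *
      (1 + 2 ^ ℓ * (128 * (A : ℝ)) * 2 ^ ℓ / (1 / (64 * (A : ℝ)))) ^ ℓ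
      ≤ (1 / 2) ^ ((4 * ℓ + 15) * ℓ) * (2 ^ (4 * ℓ + 14)) ^ ℓ :=
        mul_le_mul h2 h1 (pow_nonneg hY0 _) (by positivity)
    _ = (1 / 2) ^ ℓ := by
        rw [← pow_mul, show (4 * ℓ + 15) * ℓ = (4 * ℓ + 14) * ℓ + ℓ by ring, pow_add, one_div_pow,
          one_div_pow]
        have : (2 : ℝ) ^ ((4 * ℓ + 14) * ℓ) > 0 := by positivity
        field_simp
    _ ≤ 1 / (64 * (A : ℝ)) := by
        rw [one_div_pow]
        apply one_div_le_one_div_of_le (by positivity)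
        exact_mod_cast h64

end Vale.Agent.Lib.P034LogStar
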