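import Vale.Agent.Lib.P034LogStar.Assemble
import Vale.Agent.Lib.P034LogStar.Numeric
import Vale.Agent.Lib.P034LogStar.LogStarDef

open Finset

namespace Vale.Agent.Lib.P034LogStar

variable {X : Type*} [Fintype X] [DecidableEq X]

set_option linter.unusedSectionVars false

lemma logStar_of_le {n : ℕ} (h : n ≤ 1) : logStar n = 0 := by
  rw [logStar, dif_pos h]

lemma logStar_of_gt {n : ℕ} (h : ¬ n ≤ 1) : logStar n = 1 + logStar (Nat.log 2 n) := by
  rw [logStar, dif_neg h]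

lemma logStar_mono : ∀ (b a : ℕ), a ≤ b → logStar a ≤ logStar b := by
  intro b
  induction b using Nat.strong_induction_on with
  | _ b ih =>
    intro a hab
    by_cases ha : a ≤ 1
    · rw [logStar_of_le ha]
      exact Nat.zero_le _
    · have hb : ¬ b ≤ 1 := by omega
      rw [logStar_of_gt ha, logStar_of_gt hb]
      have h1 : Nat.log 2 b < b := Nat.log_lt_self 2 (by omega)
      have h2 := ih _ h1 (Nat.log 2 a) (Nat.log_mono_right hab)
      omega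

/-- fuel for the recursion. -/
def Reach : ℕ → ℕ → Prop
  | 0, ℓ => isSmall ℓ
  | n + 1, ℓ => isSmall ℓ ∨ Reach n (tauFn ℓ)

lemma isSmall_of_le_one {ℓ : ℕ} (h : ℓ ≤ 1) : isSmall ℓ := by
  unfold isSmall Afn
  have h3 : Nat.log 2 ℓ = 0 := Nat.log_of_lt (by omega)
  rw [h3]
  norm_num

lemma reach_of_logStar : ∀ (m ℓ : ℕ), logStar ℓ ≤ m → Reach (2 * m) ℓ := by
  intro m
  induction m with
  | zero =>
    intro ℓ h
    by_cases hℓ : ℓ ≤ 1
    · exact isSmall_of_le_one hℓ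
    · rw [logStar_of_gt hℓ] at h
      omega
  | succ m ih =>
    intro ℓ h
    show isSmall ℓ ∨ (isSmall (tauFn ℓ) ∨ Reach (2 * m) (tauFn (tauFn ℓ)))
    by_cases hs : isSmall ℓ
    · exact Or.inl hs
    · right; right
      apply ih
      have hℓ : ¬ ℓ ≤ 1 := fun h1 => hs (isSmall_of_le_one h1)
      rw [logStar_of_gt hℓ] at h
      have h2 := logStar_mono _ _ (tau_tau_le hs)
      omega

/-- the trivial bound that takes care of small sizes. -/
lemma base_lemma {g : Finset X → ℝ} (hg : ∀ S, 0 ≤ g S)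
    (I : Finset (Finset X)) {ℓ : ℕ} (hsize : ∀ H ∈ I, H.card ≤ ℓ) (hZ : ∀ H ∈ I, 1 ≤ Zw g H)
    {r : ℝ} (hr : 0 ≤ r) :
    ∃ G : Finset (Finset X), (∀ H ∈ I, ∃ S ∈ G, S ⊆ H) ∧
      ∑ S ∈ G, r ^ S.card ≤ 2 ^ ℓ * wc g r := by
  classical
  have hpow : (0 : ℝ) < 2 ^ ℓ := by positivity
  refine ⟨univ.filter (fun S => 1 / 2 ^ ℓ ≤ g S), ?_, ?_⟩
  · intro H hH
    by_contra hcon
    have hall : ∀ S ∈ H.powerset, g S < 1 / 2 ^ ℓ := by
      intro S hS
      by_contra h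
      exact hcon ⟨S, Finset.mem_filter.mpr ⟨Finset.mem_univ _, not_lt.mp h⟩,
        Finset.mem_powerset.mp hS⟩
    have h1 : Zw g H < ∑ _S ∈ H.powerset, (1 / 2 ^ ℓ : ℝ) :=
      Finset.sum_lt_sum_of_nonempty ⟨∅, by simp⟩ hall
    rw [Finset.sum_const, nsmul_eq_mul, Finset.card_powerset] at h1
    have h2 : ((2 ^ H.card : ℕ) : ℝ) ≤ 2 ^ ℓ := by
      have : 2 ^ H.card ≤ 2 ^ ℓ := Nat.pow_le_pow_right (by norm_num) (hsize H hH)
      exact_mod_cast this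
    have h3 : ((2 ^ H.card : ℕ) : ℝ) * (1 / 2 ^ ℓ) ≤ 1 := by
      rw [mul_one_div, div_le_one hpow]
      exact h2
    have := hZ H hH
    linarith
  · calc ∑ S ∈ univ.filter (fun S => 1 / 2 ^ ℓ ≤ g S), r ^ S.card
        ≤ ∑ S ∈ univ.filter (fun S => 1 / 2 ^ ℓ ≤ g S), 2 ^ ℓ * (g S * r ^ S.card) := by
          apply Finset.sum_le_sum
          intro S hS
          have h1 : 1 / 2 ^ ℓ ≤ g S := (Finset.mem_filter.mp hS).2
          have h2 : (1 : ℝ) ≤ 2 ^ ℓ * g S := by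
            rw [div_le_iff₀ hpow] at h1
            linarith
          have h3 : 0 ≤ r ^ S.card := pow_nonneg hr _
          nlinarith
      _ ≤ ∑ S : Finset X, 2 ^ ℓ * (g S * r ^ S.card) := by
          apply Finset.sum_le_sum_of_subset_of_nonneg (Finset.subset_univ _)
          intro S _ _
          exact mul_nonneg hpow.le (mul_nonneg (hg S) (pow_nonneg hr _))
      _ = 2 ^ ℓ * wc g r := by
          unfold wc
          rw [Finset.mul_sum]

lemma small_case {Kb : ℕ} {ℓ : ℕ} (hKb : 16 * 2 ^ ℓ ≤ Kb) {g : Finset X → ℝ}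
    (hg : ∀ S, 0 ≤ g S) (hg0 : g ∅ = 0)
    (I : Finset (Finset X)) (hsize : ∀ H ∈ I, H.card ≤ ℓ) (hZ : ∀ H ∈ I, 1 ≤ Zw g H)
    {ρ r : ℝ} (hr : 0 < r) (hK : (Kb : ℝ) * r ≤ ρ) (hc : wc g ρ ≤ cFn ℓ) :
    ∃ G : Finset (Finset X), (∀ H ∈ I, ∃ S ∈ G, S ⊆ H) ∧ ∑ S ∈ G, r ^ S.card ≤ dFn ℓ := by
  obtain ⟨G, h1, h2⟩ := base_lemma hg I hsize hZ hr.le
  refine ⟨G, h1, h2.trans ?_⟩
  have hKb' : 16 * (2 : ℝ) ^ ℓ ≤ Kb := by exact_mod_cast hKb
  have hpow : (0 : ℝ) < 2 ^ ℓ := by positivity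
  have h16 : 16 * (2 : ℝ) ^ ℓ * r ≤ ρ := (mul_le_mul_of_nonneg_right hKb' hr.le).trans hK
  have hρ : 0 < ρ := lt_of_lt_of_le (by positivity) h16
  have hrρ : r ≤ ρ := by
    have h3 : (1 : ℝ) ≤ 2 ^ ℓ := one_le_pow₀ (by norm_num)
    nlinarith
  have h3 : wc g r ≤ r / ρ * wc g ρ := wc_scale hg hg0 hr.le hrρ hρ
  have h4 : wc g ρ ≤ 1 := hc.trans ((cFn_le ℓ).trans (by norm_num))
  have h5 : r / ρ * wc g ρ ≤ r / ρ := by
    have : 0 ≤ r / ρ := by positivity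
    nlinarith
  have h6 : 2 ^ ℓ * (r / ρ) ≤ 1 / 16 := by
    rw [← mul_div_assoc, div_le_iff₀ hρ]
    linarith
  have h7 := dFn_ge ℓ
  have h8 : (2 : ℝ) ^ ℓ * wc g r ≤ 2 ^ ℓ * (r / ρ) :=
    mul_le_mul_of_nonneg_left (h3.trans h5) hpow.le
  linarith

/-- the inductive bound. -/
theorem main_induction (Kb : ℕ) (hKb : ∀ ℓ, isSmall ℓ → 16 * 2 ^ ℓ ≤ Kb) :
    ∀ (n ℓ : ℕ), Reach n ℓ → ∀ (g : Finset X → ℝ) (I : Finset (Finset X)) (ρ r : ℝ),
      (∀ S, 0 ≤ g S) → g ∅ = 0 → (∀ H ∈ I, H.card ≤ ℓ) → (∀ H ∈ I, 1 ≤ Zw g H) → 0 < r →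
      ((Kb : ℝ) + 2 * n) * r ≤ ρ → wc g ρ ≤ cFn ℓ →
      ∃ G : Finset (Finset X), (∀ H ∈ I, ∃ S ∈ G, S ⊆ H) ∧ ∑ S ∈ G, r ^ S.card ≤ dFn ℓ := by
  intro n
  induction n with
  | zero =>
    intro ℓ hreach g I ρ r hg hg0 hsize hZ hr hK hc
    refine small_case (hKb ℓ hreach) hg hg0 I hsize hZ hr ?_ hc
    simpa using hK
  | succ n ih =>
    intro ℓ hreach g I ρ r hg hg0 hsize hZ hr hK hc
    have hKb0 : (0 : ℝ) ≤ Kb := Nat.cast_nonneg _
    have hn0 : (0 : ℝ) ≤ n := Nat.cast_nonneg _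
    push_cast at hK
    by_cases hs : isSmall ℓ
    · refine small_case (hKb ℓ hs) hg hg0 I hsize hZ hr ?_ hc
      have h1 : (Kb : ℝ) * r ≤ ((Kb : ℝ) + 2 * (n + 1)) * r := by
        apply mul_le_mul_of_nonneg_right _ hr.le
        linarith
      linarith
    · have hreach' : Reach n (tauFn ℓ) := by
        rcases hreach with h | h
        · exact absurd h hs
        · exact h
      -- parameters
      set A : ℕ := Afn ℓ with hA
      have hA1 : 1 ≤ A := Afn_pos ℓ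
      have hAr : (1 : ℝ) ≤ A := by exact_mod_cast hA1
      have hApos : (0 : ℝ) < A := by linarith
      have h2r : 2 * r ≤ ρ := by
        have h1 : 2 * r ≤ ((Kb : ℝ) + 2 * (n + 1)) * r := by
          apply mul_le_mul_of_nonneg_right _ hr.le
          linarith
        linarith
      have hρ : 0 < ρ := by linarith
      have hε : 0 < 1 / (64 * (A : ℝ)) := by positivity
      have hε32 : 2 * (1 / (64 * (A : ℝ))) ≤ 1 / 32 := by
        have : 1 / (64 * (A : ℝ)) ≤ 1 / 64 := by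
          apply one_div_le_one_div_of_le (by norm_num)
          linarith
        linarith
      have hε2 : 2 * (1 / (64 * (A : ℝ))) < 1 := by linarith
      have hθ' : 0 < 128 * (A : ℝ) := by positivity
      have hL : (0 : ℝ) ≤ (((4 * ℓ + 15) * ℓ : ℕ) : ℝ) := Nat.cast_nonneg _
      have hdst : (896 * A ^ 2) * (21 * A) ≤ tauFn ℓ := by
        apply le_of_eq
        show _ = 18816 * A ^ 3
        ring
      have hc58 := cFn_le ℓ
      have hc1 : cFn ℓ / (1 - 2 * (1 / (64 * (A : ℝ)))) ≤ 1 := by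
        rw [div_le_one (by linarith)]
        linarith
      obtain ⟨G₀, C₀, g', hcov, hcost, hC, hg'nn, hg'0, hg'c⟩ :=
        step_lemma (ε := 1 / (64 * (A : ℝ))) (θ' := 128 * (A : ℝ))
          (L := (((4 * ℓ + 15) * ℓ : ℕ) : ℝ)) (d := 896 * A ^ 2) (s0 := 21 * A)
          (t := tauFn ℓ) hg hg0 I hsize hZ hr h2r hc hε hε2 hθ' hL hdst hc1
      -- recursive call
      have hA'1 : 1 ≤ Afn (tauFn ℓ) := Afn_pos _
      have hA'r : (1 : ℝ) ≤ Afn (tauFn ℓ) := by exact_mod_cast hA'1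
      have h4 : 4 * (Afn (tauFn ℓ) : ℝ) ≤ A := by
        have := four_Afn_tau_le hs
        exact_mod_cast this
      have hcstep : wc g' (ρ - 2 * r) ≤ cFn (tauFn ℓ) :=
        hg'c.trans (cFn_step hAr hA'r h4)
      obtain ⟨G₁, hG₁, hG₁c⟩ := ih (tauFn ℓ) hreach' g' C₀ (ρ - 2 * r) r hg'nn hg'0
        (fun T hT => (hC T hT).1) (fun T hT => (hC T hT).2) hr (by linarith) hcstep
      refine ⟨G₀ ∪ G₁, ?_, ?_⟩
      · intro H hH
        rcases hcov H hH with ⟨S, hS, hSH⟩ | ⟨T, hT, hTH⟩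
        · exact ⟨S, Finset.mem_union_left _ hS, hSH⟩
        · obtain ⟨S, hS, hST⟩ := hG₁ T hT
          exact ⟨S, Finset.mem_union_right _ hS, hST.trans hTH⟩
      · have hfnn : ∀ S : Finset X, 0 ≤ r ^ S.card := fun S => pow_nonneg hr.le _
        have h1 := sum_union_le hfnn G₀ G₁
        -- the budget
        have hc1' : wc g ρ ≤ 1 := hc.trans (hc58.trans (by norm_num))
        have hw1 : wc g (2 * r) ≤ 1 := by
          have h2 : wc g (2 * r) ≤ 2 * r / ρ * wc g ρ :=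
            wc_scale hg hg0 (by positivity) h2r hρ
          have h3 : 2 * r / ρ ≤ 1 := (div_le_one hρ).mpr h2r
          exact h2.trans (mul_le_one₀ h3 (wc_nonneg hg hρ.le) hc1')
        have ht1 : wc g (2 * r) / (128 * (A : ℝ)) ≤ 1 / (64 * (A : ℝ)) := by
          calc wc g (2 * r) / (128 * (A : ℝ)) ≤ 1 / (128 * (A : ℝ)) :=
                div_le_div_of_nonneg_right hw1 hθ'.le
            _ ≤ 1 / (64 * (A : ℝ)) :=
                one_div_le_one_div_of_le (by positivity) (by linarith)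
        have hℓlt : ℓ < 2 ^ A := ell_lt_pow hs
        have hℓ1 : 1 ≤ ℓ := by have := nonsmall_ell_pos hs; omega
        have ht2 := chain_term hA1 hℓlt hℓ1
        have hwb0 : 0 ≤ wc (gB g (1 / (64 * (A : ℝ)) / 2 ^ ℓ) (21 * A)) r :=
          wc_nonneg (gB_nonneg hg _ _) hr.le
        have hwb : wc (gB g (1 / (64 * (A : ℝ)) / 2 ^ ℓ) (21 * A)) r ≤ (1 / 2) ^ (21 * A) := by
          have h2 := wc_gB_le (γ := 1 / (64 * (A : ℝ)) / 2 ^ ℓ) (s0 := 21 * A) hg hr.le hρ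
            (by linarith)
          have hκ0 : 0 ≤ r / ρ := by positivity
          have hκ : r / ρ ≤ 1 / 2 := by
            rw [div_le_iff₀ hρ]
            linarith
          have h3 : (r / ρ) ^ (21 * A) ≤ (1 / 2) ^ (21 * A) := pow_le_pow_left₀ hκ0 hκ _
          have h5 : 0 ≤ (r / ρ) ^ (21 * A) := pow_nonneg hκ0 _
          exact h2.trans ((mul_le_of_le_one_right h5 hc1').trans h3)
        have ht3 := big_term hA1 hℓlt hℓ1 hwb0 hwb
        have ht4 := unc_term hA1 (Afn_le_self hs) (sixtyfour_le hs)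
        have hsum : 1 / (64 * (A : ℝ)) + (1 / (64 * (A : ℝ)) + 1 / (64 * (A : ℝ)) + 1 / (64 * (A : ℝ)))
            = 1 / (16 * (A : ℝ)) := by
          field_simp
          norm_num
        have hstep := dFn_step hA'r h4
        have hd : dFn ℓ = 1 / 4 - 1 / (16 * (A : ℝ)) := rfl
        have hd' : dFn (tauFn ℓ) = 1 / 4 - 1 / (16 * (Afn (tauFn ℓ) : ℝ)) := rfl
        rw [mul_add] at hcost
        rw [hd]
        rw [hd'] at hG₁c
        linarith

/-- existence of the constant for small sizes (no numerical evaluation involved). -/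
lemma exists_Kb (b : ℕ) : ∃ K : ℕ, 1 ≤ K ∧ ∀ ℓ, Nat.log 2 (Afn ℓ) < b → 16 * 2 ^ ℓ ≤ K := by
  refine ⟨16 * 2 ^ (2 ^ (2 ^ b)), Nat.succ_le_of_lt (Nat.mul_pos (by norm_num) (Nat.pow_pos (by norm_num))), ?_⟩
  intro ℓ hℓ
  have h1 : Afn ℓ < 2 ^ b := Nat.lt_pow_of_log_lt (by norm_num) hℓ
  have h2 : Nat.log 2 ℓ < 2 ^ b := by
    unfold Afn at h1
    omega
  have h3 : ℓ < 2 ^ (2 ^ b) := Nat.lt_pow_of_log_lt (by norm_num) h2
  have h4 : 2 ^ ℓ ≤ 2 ^ (2 ^ (2 ^ b)) := Nat.pow_le_pow_right (by norm_num) h3.le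
  exact Nat.mul_le_mul_left _ h4

/-- removing the weight on the empty set. -/
lemma remove_empty {g : Finset X → ℝ} (hg : ∀ S, 0 ≤ g S) {p : ℝ} (hp : 0 < p)
    (hc : ∑ S : Finset X, g S * p ^ S.card ≤ 1 / 2) :
    ∃ g₂ : Finset X → ℝ, (∀ S, 0 ≤ g₂ S) ∧ g₂ ∅ = 0 ∧
      (∀ H : Finset X, 1 ≤ ∑ S ∈ H.powerset, g S → 1 ≤ Zw g₂ H) ∧ wc g₂ p ≤ 1 / 2 := by
  have h0 : g ∅ ≤ 1 / 2 := by
    have h1 := Finset.single_le_sum (f := fun S : Finset X => g S * p ^ S.card)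
      (fun S _ => mul_nonneg (hg S) (pow_nonneg hp.le _)) (Finset.mem_univ (∅ : Finset X))
    simp only [Finset.card_empty, pow_zero, mul_one] at h1
    linarith
  have hD : 0 < 1 - g ∅ := by linarith
  refine ⟨fun S => if S = ∅ then 0 else g S / (1 - g ∅), ?_, by simp, ?_, ?_⟩
  · intro S
    simp only
    split_ifs
    · exact le_rfl
    · exact div_nonneg (hg S) hD.le
  · intro H hH
    unfold Zw
    have hmem : (∅ : Finset X) ∈ H.powerset := by simp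
    rw [← Finset.add_sum_erase _ _ hmem] at hH ⊢
    simp only [if_true, zero_add]
    have h1 : ∑ S ∈ H.powerset.erase ∅, (if S = ∅ then 0 else g S / (1 - g ∅))
        = (∑ S ∈ H.powerset.erase ∅, g S) / (1 - g ∅) := by
      rw [Finset.sum_div]
      apply Finset.sum_congr rfl
      intro S hS
      rw [if_neg (Finset.ne_of_mem_erase hS)]
    rw [h1, le_div_iff₀ hD]
    linarith
  · unfold wc
    have hmem : (∅ : Finset X) ∈ (univ : Finset (Finset X)) := Finset.mem_univ _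
    rw [← Finset.add_sum_erase _ _ hmem] at hc ⊢
    simp only [if_true, zero_add, Finset.card_empty, pow_zero, mul_one] at hc ⊢
    have h1 : ∑ S ∈ (univ : Finset (Finset X)).erase ∅,
        (if S = ∅ then 0 else g S / (1 - g ∅)) * p ^ S.card
        = (∑ S ∈ (univ : Finset (Finset X)).erase ∅, g S * p ^ S.card) / (1 - g ∅) := by
      rw [Finset.sum_div]
      apply Finset.sum_congr rfl
      intro S hS
      rw [if_neg (Finset.ne_of_mem_erase hS)]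
      ring
    rw [h1, div_le_iff₀ hD]
    nlinarith [hg ∅]

/-- the main theorem. -/
theorem logStar_bound : ∃ C : ℝ, 0 < C ∧
    ∀ (X : Type) [Fintype X] [DecidableEq X] (F : Finset X → Prop) (ℓ : ℕ),
      (∀ H, F H → ∃ H', F H' ∧ H' ⊆ H ∧ H'.card ≤ ℓ) →
      ∀ (g : Finset X → ℝ) (p : ℝ), (∀ S, 0 ≤ g S) → 0 < p →
        (∀ H, F H → 1 ≤ ∑ S ∈ H.powerset, g S) →
        ∑ S : Finset X, g S * p ^ S.card ≤ 1 / 2 →
        ∃ G : Finset (Finset X), (∀ H, F H → ∃ S ∈ G, S ⊆ H) ∧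
          ∑ S ∈ G, (p / (C * (1 + (logStar ℓ : ℝ)))) ^ S.card ≤ 1 / 2 := by
  obtain ⟨Kb, hKb1, hKb⟩ := exists_Kb 36
  have hKb1r : (1 : ℝ) ≤ Kb := by exact_mod_cast hKb1
  refine ⟨(Kb : ℝ) + 4, by linarith, ?_⟩
  intro X _ _ F ℓ hmin g p hg hp hF hc
  classical
  obtain ⟨g₂, hg₂, hg₂0, hg₂Z, hg₂c⟩ := remove_empty hg hp hc
  have hm0 : (0 : ℝ) ≤ logStar ℓ := Nat.cast_nonneg _
  set D : ℝ := ((Kb : ℝ) + 4) * (1 + (logStar ℓ : ℝ)) with hD
  have hDpos : 0 < D := by positivity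
  set r : ℝ := p / D with hr
  have hrpos : 0 < r := by positivity
  have hK : ((Kb : ℝ) + 2 * ((2 * logStar ℓ : ℕ) : ℝ)) * r ≤ p := by
    rw [hr, ← mul_div_assoc, div_le_iff₀ hDpos]
    push_cast
    have : (Kb : ℝ) + 2 * (2 * (logStar ℓ : ℝ)) ≤ D := by
      rw [hD]
      nlinarith
    nlinarith
  obtain ⟨G, hG, hGc⟩ := main_induction Kb (fun ℓ h => hKb ℓ h) (2 * logStar ℓ) ℓ
    (reach_of_logStar _ _ le_rfl) g₂ (univ.filter (fun H => F H ∧ H.card ≤ ℓ)) p r hg₂ hg₂0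
    (fun H hH => (Finset.mem_filter.mp hH).2.2)
    (fun H hH => hg₂Z H (hF H (Finset.mem_filter.mp hH).2.1))
    hrpos hK (hg₂c.trans (cFn_ge ℓ))
  refine ⟨G, ?_, ?_⟩
  · intro H hH
    obtain ⟨H', h1, h2, h3⟩ := hmin H hH
    obtain ⟨S, hS, hSH⟩ := hG H' (Finset.mem_filter.mpr ⟨Finset.mem_univ _, h1, h3⟩)
    exact ⟨S, hS, hSH.trans h2⟩
  · have := dFn_le ℓ
    linarith

end Vale.Agent.Lib.P034LogStar
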