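import Vale.Agent.Lib.P034LogStar.Family

open Finset

namespace Vale.Agent.Lib.P034LogStar

variable {X : Type*} [Fintype X] [DecidableEq X]

set_option linter.unusedSectionVars false

/-- cost of the family of heavy sets. -/
lemma heavy_cost {g : Finset X → ℝ} (hg : ∀ S, 0 ≤ g S) {r θ' : ℝ} (hr : 0 ≤ r) (hθ' : 0 < θ')
    (A : Finset (Finset X)) (hA : ∀ U ∈ A, θ' ≤ Noise g r U) :
    ∑ U ∈ A, r ^ U.card ≤ wc g (2 * r) / θ' := by
  have h1 : ∑ U ∈ A, r ^ U.card ≤ ∑ U ∈ A, Noise g r U * r ^ U.card / θ' := by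
    apply Finset.sum_le_sum
    intro U hU
    rw [le_div_iff₀ hθ']
    have := hA U hU
    have h2 : 0 ≤ r ^ U.card := pow_nonneg hr _
    nlinarith
  have h2 : ∑ U ∈ A, Noise g r U * r ^ U.card / θ' ≤ ∑ U : Finset X, Noise g r U * r ^ U.card / θ' := by
    apply Finset.sum_le_sum_of_subset_of_nonneg (Finset.subset_univ _)
    intro U _ _
    exact div_nonneg (mul_nonneg (noise_nonneg hg hr U) (pow_nonneg hr _)) hθ'.le
  have h3 : ∑ U : Finset X, Noise g r U * r ^ U.card / θ' = wc g (2 * r) / θ' := by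
    rw [← Finset.sum_div, noise_wc, two_mul]
  linarith

open Classical in
/-- the trimmed version of a set. -/
noncomputable def trim (g : Finset X → ℝ) (γ : ℝ) (H : Finset X) : Finset X :=
  (univ.filter (fun S : Finset X => γ ≤ g S ∧ S ⊆ H)).biUnion id

lemma trim_subset (g : Finset X → ℝ) (γ : ℝ) (H : Finset X) : trim g γ H ⊆ H := by
  classical
  intro x hx
  unfold trim at hx
  obtain ⟨S, hS, hxS⟩ := Finset.mem_biUnion.mp hx
  exact (Finset.mem_filter.mp hS).2.2 hxS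

lemma subset_trim {g : Finset X → ℝ} {γ : ℝ} {H S : Finset X} (h1 : γ ≤ g S) (h2 : S ⊆ H) :
    S ⊆ trim g γ H := by
  classical
  intro x hx
  unfold trim
  exact Finset.mem_biUnion.mpr ⟨S, Finset.mem_filter.mpr ⟨Finset.mem_univ _, h1, h2⟩, hx⟩

lemma trim_gen {g : Finset X → ℝ} {γ : ℝ} {H : Finset X} {x : X} (hx : x ∈ trim g γ H) :
    ∃ S, γ ≤ g S ∧ S ⊆ trim g γ H ∧ x ∈ S := by
  classical
  unfold trim at hx
  obtain ⟨S, hS, hxS⟩ := Finset.mem_biUnion.mp hx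
  obtain ⟨-, h1, h2⟩ := Finset.mem_filter.mp hS
  exact ⟨S, h1, subset_trim h1 h2, hxS⟩

open Classical in
lemma trim_mass {g : Finset X → ℝ} (hg : ∀ S, 0 ≤ g S) {γ ε : ℝ} {H : Finset X} {ℓ : ℕ}
    (hγ : 0 ≤ γ) (hH : H.card ≤ ℓ) (hZ : 1 ≤ Zw g H) (hγε : 2 ^ ℓ * γ ≤ ε) :
    1 - ε ≤ ∑ S ∈ (trim g γ H).powerset.filter (fun S => γ ≤ g S), g S := by
  have h1 : ∑ S ∈ H.powerset.filter (fun S => ¬ γ ≤ g S), g S ≤ ε := by
    calc ∑ S ∈ H.powerset.filter (fun S => ¬ γ ≤ g S), g S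
        ≤ ∑ _S ∈ H.powerset.filter (fun S => ¬ γ ≤ g S), γ := by
          apply Finset.sum_le_sum
          intro S hS
          exact (not_le.mp (Finset.mem_filter.mp hS).2).le
      _ = ((H.powerset.filter (fun S => ¬ γ ≤ g S)).card : ℝ) * γ := by
          rw [Finset.sum_const, nsmul_eq_mul]
      _ ≤ (2 : ℝ) ^ ℓ * γ := by
          apply mul_le_mul_of_nonneg_right _ hγ
          have h2 : (H.powerset.filter (fun S => ¬ γ ≤ g S)).card ≤ 2 ^ ℓ := by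
            calc _ ≤ H.powerset.card := Finset.card_filter_le _ _
              _ = 2 ^ H.card := Finset.card_powerset _
              _ ≤ 2 ^ ℓ := Nat.pow_le_pow_right (by norm_num) hH
          exact_mod_cast h2
      _ ≤ ε := hγε
  have h2 : Zw g H = ∑ S ∈ H.powerset.filter (fun S => γ ≤ g S), g S
      + ∑ S ∈ H.powerset.filter (fun S => ¬ γ ≤ g S), g S :=
    (Finset.sum_filter_add_sum_filter_not _ _ _).symm
  have h3 : ∑ S ∈ H.powerset.filter (fun S => γ ≤ g S), g S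
      ≤ ∑ S ∈ (trim g γ H).powerset.filter (fun S => γ ≤ g S), g S := by
    apply Finset.sum_le_sum_of_subset_of_nonneg
    · intro S hS
      obtain ⟨h4, h5⟩ := Finset.mem_filter.mp hS
      exact Finset.mem_filter.mpr
        ⟨Finset.mem_powerset.mpr (subset_trim h5 (Finset.mem_powerset.mp h4)), h5⟩
    · intro S _ _
      exact hg S
  linarith

open Classical in
/-- small sets in the support. -/
noncomputable def gA (g : Finset X → ℝ) (γ : ℝ) (s0 : ℕ) (S : Finset X) : ℝ :=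
  if γ ≤ g S ∧ S.card ≤ s0 then g S else 0

open Classical in
/-- large sets in the support. -/
noncomputable def gB (g : Finset X → ℝ) (γ : ℝ) (s0 : ℕ) (S : Finset X) : ℝ :=
  if γ ≤ g S ∧ ¬ S.card ≤ s0 then g S else 0

lemma gA_nonneg {g : Finset X → ℝ} (hg : ∀ S, 0 ≤ g S) (γ : ℝ) (s0 : ℕ) (S : Finset X) :
    0 ≤ gA g γ s0 S := by
  unfold gA
  split_ifs
  · exact hg S
  · exact le_rfl

lemma gB_nonneg {g : Finset X → ℝ} (hg : ∀ S, 0 ≤ g S) (γ : ℝ) (s0 : ℕ) (S : Finset X) :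
    0 ≤ gB g γ s0 S := by
  unfold gB
  split_ifs
  · exact hg S
  · exact le_rfl

lemma gA_le {g : Finset X → ℝ} (hg : ∀ S, 0 ≤ g S) (γ : ℝ) (s0 : ℕ) (S : Finset X) :
    gA g γ s0 S ≤ g S := by
  unfold gA
  split_ifs
  · exact le_rfl
  · exact hg S

lemma gB_le {g : Finset X → ℝ} (hg : ∀ S, 0 ≤ g S) (γ : ℝ) (s0 : ℕ) (S : Finset X) :
    gB g γ s0 S ≤ g S := by
  unfold gB
  split_ifs
  · exact le_rfl
  · exact hg S

lemma gA_empty {g : Finset X → ℝ} (hg0 : g ∅ = 0) (γ : ℝ) (s0 : ℕ) :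
    gA g γ s0 ∅ = 0 := by
  unfold gA
  rw [hg0]
  split_ifs with h
  · rfl
  · rfl

open Classical in
lemma gA_add_gB (g : Finset X → ℝ) (γ : ℝ) (s0 : ℕ) (b : Finset X) :
    Zw (gA g γ s0) b + Zw (gB g γ s0) b
      = ∑ S ∈ b.powerset.filter (fun S => γ ≤ g S), g S := by
  unfold Zw
  rw [← Finset.sum_add_distrib, Finset.sum_filter]
  apply Finset.sum_congr rfl
  intro S _
  unfold gA gB
  by_cases h1 : γ ≤ g S <;> by_cases h2 : S.card ≤ s0 <;> simp [h1, h2]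

/-- the cost of the large sets is negligible. -/
lemma wc_gB_le {g : Finset X → ℝ} (hg : ∀ S, 0 ≤ g S) {γ r ρ : ℝ} {s0 : ℕ} (hr : 0 ≤ r)
    (hρ : 0 < ρ) (hrρ : r ≤ ρ) : wc (gB g γ s0) r ≤ (r / ρ) ^ s0 * wc g ρ := by
  unfold wc
  rw [Finset.mul_sum]
  apply Finset.sum_le_sum
  intro S _
  have hρp : 0 ≤ ρ ^ S.card := pow_nonneg hρ.le _
  have hκ0 : 0 ≤ r / ρ := div_nonneg hr hρ.le
  have hκ1 : r / ρ ≤ 1 := (div_le_one hρ).mpr hrρ
  by_cases h : γ ≤ g S ∧ ¬ S.card ≤ s0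
  · have h1 : gB g γ s0 S = g S := by
      unfold gB
      rw [if_pos h]
    rw [h1]
    have h2 : r ^ S.card = (r / ρ) ^ S.card * ρ ^ S.card := by
      rw [← mul_pow, div_mul_cancel₀ _ hρ.ne']
    have h3 : (r / ρ) ^ S.card ≤ (r / ρ) ^ s0 :=
      pow_le_pow_of_le_one hκ0 hκ1 (by have := h.2; omega)
    rw [h2]
    have := mul_le_mul_of_nonneg_right h3 (mul_nonneg (hg S) hρp)
    nlinarith
  · have h1 : gB g γ s0 S = 0 := by
      unfold gB
      rw [if_neg h]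
    rw [h1, zero_mul]
    exact mul_nonneg (pow_nonneg hκ0 _) (mul_nonneg (hg S) hρp)

open Classical in
/-- rounding the chain distribution. -/
lemma round_cover {g₁ gb : Finset X → ℝ} (hg₁ : ∀ S, 0 ≤ g₁ S) (hgb : ∀ S, 0 ≤ gb S)
    {r θ ε L : ℝ} {s0 t d : ℕ} (hr : 0 ≤ r) (hθ : 0 ≤ θ) (hε : 0 < ε) (hL : 0 ≤ L)
    (hsize : ∀ S, g₁ S ≠ 0 → S.card ≤ s0) (hdst : d * s0 ≤ t)
    (B : Finset (Finset X))
    (hB : ∀ b ∈ B, (ε ≤ Zw gb b ∨ 1 ≤ Zw g₁ b) ∧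
      ∀ T, T ⊆ b → T.card ≤ t → Phi g₁ r T < θ) :
    ∃ G : Finset (Finset X),
      ∑ a ∈ G, r ^ a.card + ∑ b ∈ B.filter (fun b => ∀ a ∈ G, ¬ a ⊆ b), r ^ b.card
        ≤ L * (θ ^ d + wc gb r / ε) + Real.exp (-L) * ∑ b ∈ B, r ^ b.card := by
  have hchain := chain_nonneg hg₁ r θ d
  obtain ⟨G, -, hG⟩ := rounding (fun a b : Finset X => a ⊆ b)
    (fun a => gb a / ε + chain g₁ r θ d ∅ a)
    (fun a => add_nonneg (div_nonneg (hgb a) hε.le) (hchain _ _))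
    (fun a => r ^ a.card) (fun a => pow_nonneg hr _)
    (fun b => r ^ b.card) (fun b => pow_nonneg hr _)
    univ B L hL (by
      intro b hb
      obtain ⟨h1, h2⟩ := hB b hb
      refine le_trans ?_ (le_of_eq (Finset.sum_congr (s₁ := b.powerset) (by ext a; simp)
        (fun _ _ => rfl)))
      rw [Finset.sum_add_distrib, ← Finset.sum_div]
      have hA0 : 0 ≤ ∑ a ∈ b.powerset, gb a / ε := Finset.sum_nonneg fun a _ =>
        div_nonneg (hgb a) hε.le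
      have hB0 : 0 ≤ ∑ a ∈ b.powerset, chain g₁ r θ d ∅ a := Finset.sum_nonneg fun a _ =>
        hchain _ _
      rcases h1 with h1 | h1
      · have h3 : 1 ≤ (∑ a ∈ b.powerset, gb a) / ε := by
          rw [le_div_iff₀ hε, one_mul]
          exact h1
        linarith
      · have h3 : 1 ≤ ∑ a ∈ b.powerset, chain g₁ r θ d ∅ a :=
          chain_cover hg₁ hsize h1 h2 d ∅ (Finset.empty_subset _) (by simpa using hdst)
        have h4 : 0 ≤ (∑ a ∈ b.powerset, gb a) / ε :=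
          div_nonneg (Finset.sum_nonneg fun a _ => hgb a) hε.le
        linarith)
  refine ⟨G, le_trans (le_of_eq (by congr!)) (hG.trans ?_)⟩
  refine add_le_add (mul_le_mul_of_nonneg_left ?_ hL) le_rfl
  simp_rw [add_mul]
  rw [Finset.sum_add_distrib, add_comm]
  apply add_le_add
  · have := chain_cost hg₁ hr hθ d (∅ : Finset X)
    simpa using this
  · unfold wc
    rw [Finset.sum_div]
    apply le_of_eq
    apply Finset.sum_congr rfl
    intro S _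
    ring

/-- the new weight. -/
noncomputable def gNew (g₁ : Finset X → ℝ) (r D : ℝ) (U : Finset X) : ℝ :=
  if U = ∅ then 0 else Noise g₁ r U / D

lemma gNew_nonneg {g₁ : Finset X → ℝ} (hg₁ : ∀ S, 0 ≤ g₁ S) {r D : ℝ} (hr : 0 ≤ r) (hD : 0 < D)
    (U : Finset X) : 0 ≤ gNew g₁ r D U := by
  unfold gNew
  split_ifs
  · exact le_rfl
  · exact div_nonneg (noise_nonneg hg₁ hr U) hD.le

lemma gNew_empty (g₁ : Finset X → ℝ) (r D : ℝ) : gNew g₁ r D ∅ = 0 := by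
  simp [gNew]

lemma gNew_cover {g₁ : Finset X → ℝ} (hg₁ : ∀ S, 0 ≤ g₁ S) {r D : ℝ} (hr : 0 ≤ r) (hD : 0 < D)
    {T : Finset X} (hT : D ≤ Phi g₁ r T - Phi g₁ r ∅) : 1 ≤ Zw (gNew g₁ r D) T := by
  have hmem : (∅ : Finset X) ∈ T.powerset := by simp
  unfold Zw
  rw [← Finset.add_sum_erase _ _ hmem, gNew_empty, zero_add]
  have h1 : ∑ U ∈ T.powerset.erase ∅, gNew g₁ r D U
      = (∑ U ∈ T.powerset.erase ∅, Noise g₁ r U) / D := by
    rw [Finset.sum_div]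
    apply Finset.sum_congr rfl
    intro U hU
    unfold gNew
    rw [if_neg (Finset.ne_of_mem_erase hU)]
  rw [h1, le_div_iff₀ hD, one_mul]
  exact hT.trans (phi_sub_le_noise hg₁ hr T)

lemma gNew_wc {g₁ : Finset X → ℝ} (hg₁ : ∀ S, 0 ≤ g₁ S) {r D x : ℝ} (hr : 0 ≤ r) (hD : 0 < D)
    (hx : 0 ≤ x) : wc (gNew g₁ r D) x ≤ wc g₁ (x + r) / D := by
  rw [← noise_wc, Finset.sum_div]
  unfold wc
  apply Finset.sum_le_sum
  intro U _
  unfold gNew
  have h0 : 0 ≤ Noise g₁ r U * x ^ U.card / D :=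
    div_nonneg (mul_nonneg (noise_nonneg hg₁ hr U) (pow_nonneg hx _)) hD.le
  split_ifs
  · rw [zero_mul]; exact h0
  · apply le_of_eq; ring

lemma sum_union_le {α : Type*} [DecidableEq α] {f : α → ℝ} (hf : ∀ a, 0 ≤ f a) (A B : Finset α) :
    ∑ a ∈ A ∪ B, f a ≤ ∑ a ∈ A, f a + ∑ a ∈ B, f a := by
  have h := Finset.sum_union_inter (s₁ := A) (s₂ := B) (f := f)
  have h2 : 0 ≤ ∑ a ∈ A ∩ B, f a := Finset.sum_nonneg fun a _ => hf a
  linarith

/-- the new instance has controlled cost. -/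
lemma new_cost {g₁ : Finset X → ℝ} (hg₁ : ∀ S, 0 ≤ g₁ S) (hg₁0 : g₁ ∅ = 0)
    {ρ r ε c : ℝ} (hr : 0 < r) (h2r : 2 * r ≤ ρ) (hε : 0 < ε) (hε2 : 2 * ε < 1)
    (hw : wc g₁ ρ ≤ c / (1 - 2 * ε)) (hc1 : c / (1 - 2 * ε) ≤ 1) :
    0 < 1 - ε - wc g₁ r ∧
      wc (gNew g₁ r (1 - ε - wc g₁ r)) (ρ - 2 * r) ≤ c / (1 - 2 * ε) ^ 2 := by
  have hρ : 0 < ρ := by linarith
  set w := wc g₁ ρ with hw_def
  have hw0 : 0 ≤ w := wc_nonneg hg₁ hρ.le
  set κ := r / ρ with hκ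
  have hκ0 : 0 < κ := div_pos hr hρ
  have hκ2 : κ ≤ 1 / 2 := by
    rw [hκ, div_le_iff₀ hρ]
    linarith
  have hPhi0 : wc g₁ r ≤ κ * w := wc_scale hg₁ hg₁0 hr.le (by linarith) hρ
  have h1 : w ≤ 1 := hw.trans hc1
  have hD : (1 - κ) * (1 - 2 * ε) ≤ 1 - ε - wc g₁ r := by
    nlinarith
  have hpos : 0 < (1 - κ) * (1 - 2 * ε) := mul_pos (by linarith) (by linarith)
  have hDpos : 0 < 1 - ε - wc g₁ r := lt_of_lt_of_le hpos hD
  refine ⟨hDpos, ?_⟩
  have hstep : wc (gNew g₁ r (1 - ε - wc g₁ r)) (ρ - 2 * r)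
      ≤ wc g₁ (ρ - 2 * r + r) / (1 - ε - wc g₁ r) := gNew_wc hg₁ hr.le hDpos (by linarith)
  have h3 : ρ - 2 * r + r = ρ - r := by ring
  rw [h3] at hstep
  have h4 : wc g₁ (ρ - r) ≤ (ρ - r) / ρ * w :=
    wc_scale hg₁ hg₁0 (by linarith) (by linarith) hρ
  have h5 : (ρ - r) / ρ = 1 - κ := by
    rw [hκ]; field_simp
  rw [h5] at h4
  have h2ε : 0 < 1 - 2 * ε := by linarith
  have h6 : wc g₁ (ρ - r) / (1 - ε - wc g₁ r) ≤ w / (1 - 2 * ε) := by
    rw [div_le_div_iff₀ hDpos h2ε]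
    have h7 : (1 - κ) * w * (1 - 2 * ε) ≤ w * (1 - ε - wc g₁ r) := by
      have := mul_le_mul_of_nonneg_left hD hw0
      nlinarith
    have h8 : wc g₁ (ρ - r) * (1 - 2 * ε) ≤ (1 - κ) * w * (1 - 2 * ε) :=
      mul_le_mul_of_nonneg_right h4 h2ε.le
    linarith
  have h9 : w / (1 - 2 * ε) ≤ c / (1 - 2 * ε) / (1 - 2 * ε) :=
    div_le_div_of_nonneg_right hw h2ε.le
  have h10 : c / (1 - 2 * ε) / (1 - 2 * ε) = c / (1 - 2 * ε) ^ 2 := by
    rw [div_div, sq]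
  linarith

end Vale.Agent.Lib.P034LogStar
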